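import Vale.Agent.P097.H456.Fct.B2
import Vale.Agent.P097.H288.Div

/-!
# `D = w ^ M * g` and a good real centre
-/

namespace Vale.Agent.P097.H835.Ord

open Metric Set Filter Topology Complex
open Vale.Agent.P097.H456.Fct (Box mem_Box0 Box_mono Box_ev)

/-- The order in `w`. -/
theorem exists_ord {D : ℂ × ℂ → ℂ} {t0 : ℂ} (hD : AnalyticAt ℂ D (t0, 0))
    (hne : ¬ ∀ᶠ u in 𝓝 (t0, (0 : ℂ)), D u = 0) :
    ∃ (M : ℕ) (g : ℂ × ℂ → ℂ), AnalyticAt ℂ g (t0, 0) ∧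
      (∀ᶠ u in 𝓝 (t0, (0 : ℂ)), D u = u.2 ^ M * g u) ∧ ¬ ∀ᶠ t in 𝓝 t0, g (t, 0) = 0 := by
  by_contra hcon
  push Not at hcon
  have key : ∀ M : ℕ, ∃ g : ℂ × ℂ → ℂ, AnalyticAt ℂ g (t0, 0) ∧
      ∀ᶠ u in 𝓝 (t0, (0 : ℂ)), D u = u.2 ^ M * g u := by
    intro M
    induction M with
    | zero => exact ⟨D, hD, Eventually.of_forall fun u => by simp⟩
    | succ M ih =>
      obtain ⟨g, hg, hDg⟩ := ih
      obtain ⟨Q, hQ, hgQ, -⟩ := H288.exists_div hg (hcon M g hg hDg)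
      refine ⟨Q, hQ, ?_⟩
      filter_upwards [hDg, hgQ] with u h1 h2
      rw [h1, h2, smul_eq_mul]
      ring
  apply hne
  obtain ⟨ρ, hρ, hball⟩ := Metric.eventually_nhds_iff_ball.1 hD.eventually_analyticAt
  filter_upwards [ball_mem_nhds _ hρ] with u hu
  -- the line through `(t0, 0)` and `u`
  set v : ℂ × ℂ := u - (t0, 0) with hv
  have hvn : ‖v‖ < ρ := by rwa [mem_ball, dist_eq_norm] at hu
  set R : ℝ := (ρ - ‖v‖) / (‖v‖ + 1) + 1 with hR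
  have hR1 : 1 < R := by
    have : 0 < (ρ - ‖v‖) / (‖v‖ + 1) := div_pos (by linarith) (by positivity)
    linarith
  let ℓ : ℂ → ℂ × ℂ := fun z => (t0, 0) + z • v
  have hℓ : ∀ z ∈ ball (0 : ℂ) R, ℓ z ∈ ball ((t0, 0) : ℂ × ℂ) ρ := by
    intro z hz
    rw [mem_ball_zero_iff] at hz
    rw [mem_ball, dist_eq_norm]
    show ‖((t0, 0) : ℂ × ℂ) + z • v - (t0, 0)‖ < ρ
    rw [add_sub_cancel_left, norm_smul]
    have h0 : 0 ≤ ‖v‖ := norm_nonneg _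
    calc ‖z‖ * ‖v‖ ≤ R * ‖v‖ := mul_le_mul_of_nonneg_right hz.le h0
      _ < ρ := by
        have h2 : (ρ - ‖v‖) / (‖v‖ + 1) * ‖v‖ < ρ - ‖v‖ := by
          rw [div_mul_eq_mul_div, div_lt_iff₀ (by positivity)]
          have h3 : 0 < ρ - ‖v‖ := by linarith
          nlinarith
        rw [hR]
        linarith
  have hℓa : ∀ z, AnalyticAt ℂ ℓ z := by
    intro z
    have h1 : AnalyticAt ℂ (fun z : ℂ => z • v) z :=
      ((ContinuousLinearMap.smulRight (1 : ℂ →L[ℂ] ℂ) v).analyticAt z)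
    exact analyticAt_const.add h1
  have hf : AnalyticOnNhd ℂ (fun z => D (ℓ z)) (ball (0 : ℂ) R) := fun z hz =>
    (hball _ (hℓ z hz)).comp_of_eq (hℓa z) rfl
  have h0R : (0 : ℂ) ∈ ball (0 : ℂ) R := mem_ball_self (by linarith)
  have hℓ0 : ℓ 0 = (t0, 0) := by simp [ℓ]
  have hev : (fun z => D (ℓ z)) =ᶠ[𝓝 0] 0 := by
    by_contra hne0
    have hfa := hf 0 h0R
    have h1 : analyticOrderAt (fun z => D (ℓ z)) 0 ≠ ⊤ := fun h =>
      hne0 (analyticOrderAt_eq_top.1 h)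
    obtain ⟨m, hm⟩ := ENat.ne_top_iff_exists.1 h1
    obtain ⟨g, hg, hDg⟩ := key (m + 1)
    have h2 : AnalyticAt ℂ (fun z => v.2 ^ (m + 1) * g (ℓ z)) 0 := by
      have hg' : AnalyticAt ℂ g (ℓ 0) := by rwa [hℓ0]
      exact analyticAt_const.mul (hg'.comp_of_eq (hℓa 0) rfl)
    have h3 : ∀ᶠ z in 𝓝 (0 : ℂ), D (ℓ z) = (z - 0) ^ (m + 1) • (v.2 ^ (m + 1) * g (ℓ z)) := by
      have h4 : Tendsto ℓ (𝓝 0) (𝓝 (t0, 0)) := by
        have := (hℓa 0).continuousAt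
        rwa [ContinuousAt, hℓ0] at this
      filter_upwards [h4.eventually hDg] with z hz
      rw [hz]
      have h5 : (ℓ z).2 = z * v.2 := by simp [ℓ]
      rw [h5, sub_zero, smul_eq_mul, mul_pow]
      ring
    have h6 : ((m + 1 : ℕ) : ℕ∞) ≤ analyticOrderAt (fun z => D (ℓ z)) 0 :=
      (natCast_le_analyticOrderAt hfa).2 ⟨_, h2, h3⟩
    rw [← hm] at h6
    have : m + 1 ≤ m := by exact_mod_cast h6
    omega
  have h7 := hf.eqOn_zero_of_preconnected_of_eventuallyEq_zero (convex_ball _ _).isPreconnected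
    h0R hev (show (1 : ℂ) ∈ ball (0 : ℂ) R by rw [mem_ball_zero_iff]; simpa using hR1)
  have h8 : ℓ 1 = u := by simp [ℓ, hv]
  simpa [h8] using h7

theorem exists_t1 {t0 r0 : ℝ} (hr0 : 0 < r0) {D : ℂ × ℂ → ℂ}
    (hD : AnalyticOnNhd ℂ D (Box t0 r0)) (hne : ∃ u ∈ Box (t0 : ℂ) r0, D u ≠ 0) :
    ∃ t1 r1 : ℝ, 0 < r1 ∧ Box (t1 : ℂ) r1 ⊆ Box t0 r0 ∧
      ∀ u ∈ Box (t1 : ℂ) r1, u.2 ≠ 0 → D u ≠ 0 := by
  have hB0 : ((t0 : ℂ), (0 : ℂ)) ∈ Box t0 r0 := mem_Box0 hr0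
  have hBc : IsPreconnected (Box (t0 : ℂ) r0) :=
    ((convex_ball _ _).prod (convex_ball _ _)).isPreconnected
  have hBo : IsOpen (Box (t0 : ℂ) r0) := isOpen_ball.prod isOpen_ball
  have h1 : ¬ ∀ᶠ u in 𝓝 ((t0 : ℂ), (0 : ℂ)), D u = 0 := by
    intro h
    obtain ⟨u, hu, hDu⟩ := hne
    exact hDu (hD.eqOn_zero_of_preconnected_of_eventuallyEq_zero hBc hB0 h hu)
  obtain ⟨M, g, hg, hDg, hg0⟩ := exists_ord (hD _ hB0) h1
  have hga : AnalyticAt ℂ (fun t => g (t, 0)) (t0 : ℂ) :=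
    hg.comp_of_eq (analyticAt_id.prod analyticAt_const) rfl
  have h2 : ∀ᶠ t in 𝓝[≠] (t0 : ℂ), g (t, 0) ≠ 0 := by
    rcases hga.eventually_eq_zero_or_eventually_ne_zero with h | h
    · exact absurd h hg0
    · exact h
  have h3 : ∀ᶠ u in 𝓝 ((t0 : ℂ), (0 : ℂ)), AnalyticAt ℂ g u ∧ D u = u.2 ^ M * g u :=
    hg.eventually_analyticAt.and hDg
  obtain ⟨ρ, hρ, hB⟩ := Box_ev h3
  have h4 : ∀ᶠ x : ℝ in 𝓝[≠] t0, g ((x : ℂ), 0) ≠ 0 := by
    have h5 : Tendsto (fun x : ℝ => (x : ℂ)) (𝓝[≠] t0) (𝓝[≠] (t0 : ℂ)) := by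
      refine tendsto_nhdsWithin_iff.2 ⟨?_, ?_⟩
      · exact (Complex.continuous_ofReal.tendsto t0).mono_left nhdsWithin_le_nhds
      · filter_upwards [self_mem_nhdsWithin] with x hx
        intro h
        exact hx (Complex.ofReal_injective h)
    exact h5.eventually h2
  have h6 : ∀ᶠ x : ℝ in 𝓝[≠] t0, |x - t0| < min ρ r0 / 2 := by
    have : ∀ᶠ x : ℝ in 𝓝 t0, |x - t0| < min ρ r0 / 2 := by
      have h0 : 0 < min ρ r0 / 2 := by positivity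
      filter_upwards [Metric.ball_mem_nhds t0 h0] with x hx
      rwa [mem_ball, Real.dist_eq] at hx
    exact this.filter_mono nhdsWithin_le_nhds
  obtain ⟨t1, hg1, ht1⟩ := (h4.and h6).exists
  have hdist : dist (t1 : ℂ) (t0 : ℂ) < min ρ r0 / 2 := by
    rw [Complex.dist_eq, ← Complex.ofReal_sub, Complex.norm_real]
    exact ht1
  have hmem : ((t1 : ℂ), (0 : ℂ)) ∈ Box (t0 : ℂ) ρ := by
    refine ⟨?_, mem_ball_self hρ⟩
    rw [mem_ball]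
    have : min ρ r0 / 2 ≤ ρ / 2 := by
      have := min_le_left ρ r0
      linarith
    linarith
  have h7 : ∀ᶠ u in 𝓝 ((t1 : ℂ), (0 : ℂ)), g u ≠ 0 :=
    (hB _ hmem).1.continuousAt.eventually_ne hg1
  obtain ⟨r', hr', hB'⟩ := Box_ev h7
  refine ⟨t1, min r' (min ρ r0 / 2), by positivity, ?_, ?_⟩
  · refine Box_mono ?_
    have := min_le_right r' (min ρ r0 / 2)
    have := min_le_right ρ r0
    linarith
  · intro u hu hu2
    have hu' : u ∈ Box (t1 : ℂ) r' :=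
      ⟨ball_subset_ball (min_le_left _ _) hu.1, ball_subset_ball (min_le_left _ _) hu.2⟩
    have hu3 : u ∈ Box (t0 : ℂ) ρ := by
      refine Box_mono (t1 := (t1 : ℂ)) (r1 := min r' (min ρ r0 / 2)) ?_ hu
      have := min_le_right r' (min ρ r0 / 2)
      have := min_le_left ρ r0
      linarith
    rw [(hB u hu3).2]
    exact mul_ne_zero (pow_ne_zero _ hu2) (hB' u hu')

end Vale.Agent.P097.H835.Ord
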