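import Vale.Agent.P097.H835.Word
import Vale.Agent.P097.H288.Div

/-!
# Nontriviality of the deformation

`div_global`: `H(x, ε) = h(x) + ε g(x, ε)` with `g` analytic on the same product.
`variation`: if all `g j (·, 0) = 0` then the first variation of the chain vanishes.
-/

namespace Vale.Agent.P097.H835.Mir

open Metric Set Filter Topology Complex

/-- Division by `ε` on a product. -/
theorem div_global {E : Type*} [NormedAddCommGroup E] [NormedSpace ℂ E] {D : Set E}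
    (hD : IsOpen D) {δ : ℝ} (hδ : 0 < δ) {F : E × ℂ → ℂ}
    (hF : AnalyticOnNhd ℂ F (D ×ˢ ball 0 δ)) (h0 : ∀ x ∈ D, F (x, 0) = 0) :
    ∃ g : E × ℂ → ℂ, AnalyticOnNhd ℂ g (D ×ˢ ball 0 δ) ∧
      (∀ p ∈ D ×ˢ ball (0 : ℂ) δ, F p = p.2 * g p) ∧
      ∀ x ∈ D, g (x, 0) = deriv (fun ε => F (x, ε)) 0 := by
  classical
  let g : E × ℂ → ℂ := fun p => if p.2 = 0 then fderiv ℂ F p (0, 1) else F p / p.2
  have hgd : ∀ x ∈ D, g (x, 0) = deriv (fun ε => F (x, ε)) 0 := by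
    intro x hx
    have h1 : HasDerivAt (fun ε : ℂ => ((x, ε) : E × ℂ)) (0, 1) 0 :=
      (hasDerivAt_const _ x).prodMk (hasDerivAt_id _)
    have h2 := (hF (x, 0) ⟨hx, mem_ball_self hδ⟩).differentiableAt.hasFDerivAt.comp_hasDerivAt_of_eq
      (0 : ℂ) h1 rfl
    simp only [g, if_true]
    exact h2.deriv.symm
  refine ⟨g, ?_, ?_, hgd⟩
  · rintro ⟨x, ε⟩ ⟨hx, hε⟩
    by_cases he : ε = 0
    · subst he
      obtain ⟨Q, hQ, hQ1, hQ2⟩ := H288.exists_div (hF (x, 0) ⟨hx, hε⟩) (by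
        filter_upwards [hD.mem_nhds hx] with y hy using h0 y hy)
      refine hQ.congr ?_
      have h3 : ∀ᶠ p in 𝓝 ((x, 0) : E × ℂ), Q (p.1, 0) = fderiv ℂ F (p.1, 0) (0, 1) :=
        (continuous_fst.tendsto ((x, 0) : E × ℂ)).eventually hQ2
      filter_upwards [hQ1, h3] with p h4 h5
      by_cases hp : p.2 = 0
      · have : p = (p.1, 0) := Prod.ext rfl hp
        rw [this, h5]
        simp only [g, if_true]
      · simp only [g, if_neg hp, h4, smul_eq_mul]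
        field_simp
    · have h1 : AnalyticAt ℂ (fun p : E × ℂ => F p / p.2) (x, ε) :=
        (hF (x, ε) ⟨hx, hε⟩).div analyticAt_snd he
      refine h1.congr ?_
      have h2 : ∀ᶠ p in 𝓝 ((x, ε) : E × ℂ), p.2 ≠ 0 :=
        (continuous_snd.tendsto ((x, ε) : E × ℂ)).eventually (isOpen_ne.mem_nhds he)
      filter_upwards [h2] with p hp
      simp only [g, if_neg hp]
  · rintro ⟨x, ε⟩ ⟨hx, hε⟩
    by_cases he : ε = 0
    · subst he
      rw [h0 x hx, zero_mul]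
    · simp only [g, if_neg he]
      field_simp

/-- One letter of the variation. -/
theorem var_step {h : ℂ → ℂ} {g : ℂ × ℂ → ℂ} {a s a' s' : ℂ → ℂ}
    (ha : DifferentiableAt ℂ a 0) (ha' : DifferentiableAt ℂ a' 0)
    (hh : AnalyticAt ℂ h ((a 0 + a' 0) / 2)) (hg : AnalyticAt ℂ g ((a 0 + a' 0) / 2, 0))
    (hg0 : ∀ᶠ x in 𝓝 ((a 0 + a' 0) / 2), g (x, 0) = 0)
    (hR : ∀ᶠ ε in 𝓝 (0 : ℂ), Refl (fun x => h x + ε * g (x, ε)) (a ε) (s ε) (a' ε) (s' ε))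
    (hρ : h ((a 0 + a' 0) / 2) + deriv (deriv h) ((a 0 + a' 0) / 2) ≠ 0)
    (hsin : sin ((a' 0 - a 0) / 2) ≠ 0) (da : deriv a 0 = 0) (ds : deriv s 0 = 0) :
    deriv a' 0 = 0 ∧ deriv s' 0 = 0 ∧
      deriv (fun ε => h ((a ε + a' ε) / 2) + ε * g ((a ε + a' ε) / 2, ε)) 0 = 0 ∧
      deriv (fun ε => deriv (fun x => h x + ε * g (x, ε)) ((a ε + a' ε) / 2)) 0 = 0 := by
  set ψ : ℂ → ℂ := fun ε => (a ε + a' ε) / 2 with hψ
  set d : ℂ → ℂ := fun ε => (a' ε - a ε) / 2 with hd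
  set p := deriv a' 0 / 2 with hp
  have hψd : HasDerivAt ψ p 0 := by
    have := (ha.hasDerivAt.add ha'.hasDerivAt).div_const 2
    rw [da, zero_add] at this
    exact this
  have hdd : HasDerivAt d p 0 := by
    have := (ha'.hasDerivAt.sub ha.hasDerivAt).div_const 2
    rw [da, sub_zero] at this
    exact this
  -- the `x`-derivative of `g`
  set G1 : ℂ × ℂ → ℂ := fun q => fderiv ℂ g q (1, 0) with hG1
  have hG1a : AnalyticAt ℂ G1 (ψ 0, 0) :=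
    ((ContinuousLinearMap.apply ℂ ℂ ((1 : ℂ), (0 : ℂ))).analyticAt _).comp hg.fderiv
  have hG1d : ∀ᶠ q in 𝓝 ((ψ 0, 0) : ℂ × ℂ), HasDerivAt (fun x => g (x, q.2)) (G1 q) q.1 := by
    filter_upwards [hg.eventually_analyticAt] with q hq
    have h1 : HasDerivAt (fun x : ℂ => ((x, q.2) : ℂ × ℂ)) (1, 0) q.1 :=
      (hasDerivAt_id _).prodMk (hasDerivAt_const _ _)
    exact hq.differentiableAt.hasFDerivAt.comp_hasDerivAt_of_eq q.1 h1 rfl
  have hG10 : G1 (ψ 0, 0) = 0 := by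
    have h1 : HasDerivAt (fun x => g (x, 0)) (G1 (ψ 0, 0)) (ψ 0) := hG1d.self_of_nhds
    have h2 : HasDerivAt (fun x => g (x, 0)) 0 (ψ 0) :=
      (hasDerivAt_const _ (0 : ℂ)).congr_of_eventuallyEq hg0
    exact h1.unique h2
  have hcurve : HasDerivAt (fun ε : ℂ => ((ψ ε, ε) : ℂ × ℂ)) (p, 1) 0 :=
    hψd.prodMk (hasDerivAt_id _)
  have hcc : Tendsto (fun ε : ℂ => ((ψ ε, ε) : ℂ × ℂ)) (𝓝 0) (𝓝 (ψ 0, 0)) :=
    hcurve.continuousAt
  -- a product `ε * k (ψ ε, ε)` with `k (ψ 0, 0) = 0` has derivative zero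
  have hprod : ∀ {k : ℂ × ℂ → ℂ}, AnalyticAt ℂ k (ψ 0, 0) → k (ψ 0, 0) = 0 →
      HasDerivAt (fun ε => ε * k (ψ ε, ε)) 0 0 := by
    intro k hk hk0
    have h1 : HasDerivAt (fun ε => k (ψ ε, ε)) (fderiv ℂ k (ψ 0, 0) (p, 1)) 0 :=
      hk.differentiableAt.hasFDerivAt.comp_hasDerivAt_of_eq 0 hcurve rfl
    have h2 : HasDerivAt (fun ε => ε * k (ψ ε, ε))
        (1 * k (ψ 0, 0) + 0 * fderiv ℂ k (ψ 0, 0) (p, 1)) 0 := (hasDerivAt_id (0 : ℂ)).mul h1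
    rwa [hk0, mul_zero, zero_mul, add_zero] at h2
  have hH : HasDerivAt (fun ε => h (ψ ε) + ε * g (ψ ε, ε)) (deriv h (ψ 0) * p) 0 := by
    have h1 : HasDerivAt (fun ε => h (ψ ε)) (deriv h (ψ 0) * p) 0 :=
      HasDerivAt.comp (0 : ℂ) hh.differentiableAt.hasDerivAt hψd
    have h2 := h1.add (hprod hg hg0.self_of_nhds)
    rw [add_zero] at h2
    exact h2
  have hH'e : (fun ε => deriv (fun x => h x + ε * g (x, ε)) (ψ ε)) =ᶠ[𝓝 0]
      fun ε => deriv h (ψ ε) + ε * G1 (ψ ε, ε) := by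
    have h1 := hcc.eventually hG1d
    have h2 : ∀ᶠ ε in 𝓝 (0 : ℂ), AnalyticAt ℂ h (ψ ε) :=
      hψd.continuousAt.tendsto.eventually hh.eventually_analyticAt
    filter_upwards [h1, h2] with ε h3 h4
    exact (h4.differentiableAt.hasDerivAt.add (h3.const_mul ε)).deriv
  have hH' : HasDerivAt (fun ε => deriv (fun x => h x + ε * g (x, ε)) (ψ ε))
      (deriv (deriv h) (ψ 0) * p) 0 := by
    have h1 : HasDerivAt (fun ε => deriv h (ψ ε)) (deriv (deriv h) (ψ 0) * p) 0 :=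
      HasDerivAt.comp (0 : ℂ) (h₂ := deriv h) hh.deriv.differentiableAt.hasDerivAt hψd
    have h2 := h1.add (hprod hG1a hG10)
    rw [add_zero] at h2
    exact h2.congr_of_eventuallyEq hH'e
  have hcos : HasDerivAt (fun ε => cos (d ε)) (-sin (d 0) * p) 0 :=
    (Complex.hasDerivAt_cos (d 0)).comp (0 : ℂ) hdd
  have hsn : HasDerivAt (fun ε => sin (d ε)) (cos (d 0) * p) 0 :=
    (Complex.hasDerivAt_sin (d 0)).comp (0 : ℂ) hdd
  have hv0 : deriv (fun x => h x + (0 : ℂ) * g (x, 0)) (ψ 0) = deriv h (ψ 0) := by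
    congr 1
    funext x
    ring
  have hs1 : HasDerivAt s ((deriv h (ψ 0) * p * cos (d 0) + h (ψ 0) * (-sin (d 0) * p)) -
      (deriv (deriv h) (ψ 0) * p * sin (d 0) + deriv h (ψ 0) * (cos (d 0) * p))) 0 := by
    have h1 := (hH.mul hcos).sub (hH'.mul hsn)
    rw [hv0, zero_mul, add_zero] at h1
    refine h1.congr_of_eventuallyEq ?_
    filter_upwards [hR] with ε hε using hε.1
  have hs2 : HasDerivAt s' ((deriv h (ψ 0) * p * cos (d 0) + h (ψ 0) * (-sin (d 0) * p)) +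
      (deriv (deriv h) (ψ 0) * p * sin (d 0) + deriv h (ψ 0) * (cos (d 0) * p))) 0 := by
    have h1 := (hH.mul hcos).add (hH'.mul hsn)
    rw [hv0, zero_mul, add_zero] at h1
    refine h1.congr_of_eventuallyEq ?_
    filter_upwards [hR] with ε hε using hε.2
  have hp0 : p = 0 := by
    have h1 := hs1.deriv
    rw [ds] at h1
    have h2 : (h (ψ 0) + deriv (deriv h) (ψ 0)) * sin (d 0) * p = 0 := by
      linear_combination h1
    rcases mul_eq_zero.1 h2 with h3 | h3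
    · exact absurd h3 (mul_ne_zero hρ hsin)
    · exact h3
  have ha0 : deriv a' 0 = 0 := by
    have : deriv a' 0 = 2 * p := by rw [hp]; ring
    rw [this, hp0, mul_zero]
  refine ⟨ha0, ?_, ?_, ?_⟩
  · rw [hs2.deriv, hp0]; ring
  · rw [hH.deriv, hp0, mul_zero]
  · rw [hH'.deriv, hp0, mul_zero]

theorem deriv_zero_of_exp {E al : ℂ → ℂ} (ha : DifferentiableAt ℂ al 0) (h0 : deriv al 0 = 0)
    (hE : ∀ᶠ ε in 𝓝 (0 : ℂ), E ε = I * exp (I * al ε)) : deriv E 0 = 0 := by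
  have h1 : HasDerivAt (fun ε => I * exp (I * al ε)) (I * (exp (I * al 0) * (I * 0))) 0 := by
    have h2 := ha.hasDerivAt
    rw [h0] at h2
    exact ((h2.const_mul I).cexp).const_mul I
  have h3 := (h1.congr_of_eventuallyEq hE).deriv
  rw [h3]
  ring

/-- **The deformed word** (part (C) of F2b): mirrors `h + ε g j` on one disc which does not
depend on `w2, s, δ`; not all `g j (·, 0)` vanish. -/
theorem deformation {n : ℕ} {t0 w2 c x0 : ℂ} {r s δ : ℝ}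
    {V : Set (ℂ × ℂ)} {A : ℕ → ℂ × ℂ → ℂ} {h : ℂ → ℂ} {E P Q : ℕ → (ℂ × ℂ) × ℂ → ℂ}
    (D : DChain n V (0 : ℂ) δ A h E P Q) (hn : 0 < n) (hr : 0 < r) (hs : 0 < s) (hδ : 0 < δ)
    (hc : c ≠ 0) (hV : IsOpen V) (hKV : closedBall t0 r ×ˢ closedBall w2 s ⊆ V)
    (hA : ∀ j ≤ n, AnalyticOnNhd ℂ (A j) V)
    (h1 : ∀ j < n, ∀ t ∈ closedBall t0 r, ∀ w ∈ closedBall w2 s,
      ‖deriv (fun t' => (A j (t', w) + A (j + 1) (t', w)) / 2) t - c‖ < ‖c‖ / 2)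
    (h2 : ∀ j < n, ∀ w ∈ closedBall w2 s,
      ‖(A j (t0, w) + A (j + 1) (t0, w)) / 2 - x0‖ < ‖c‖ * r / 8)
    (hh : AnalyticOnNhd ℂ h (ball x0 (‖c‖ * r / 4)))
    (hρ : ∀ x ∈ ball x0 (‖c‖ * r / 4), h x + deriv (deriv h) x ≠ 0)
    (hsin : ∀ j < n, ∀ u ∈ ball t0 (r / 12) ×ˢ ball w2 s, sin ((A (j + 1) u - A j u) / 2) ≠ 0)
    (o1 : ∀ u ∈ V, ∀ ε ∈ ball (0 : ℂ) δ, E 0 (u, ε) = E 0 (u, 0))
    (o2 : ∀ u ∈ V, ∀ ε ∈ ball (0 : ℂ) δ, P 0 (u, ε) - E 0 (u, ε) ^ 2 * Q 0 (u, ε) =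
      P 0 (u, 0) - E 0 (u, 0) ^ 2 * Q 0 (u, 0))
    (o3 : ∀ u ∈ V, ∀ ε ∈ ball (0 : ℂ) δ, E n (u, ε) = E n (u, 0))
    (o4 : ∀ u ∈ V, ∀ ε ∈ ball (0 : ℂ) δ,
      P (n - 1) (u, ε) - E n (u, ε) ^ 2 * Q (n - 1) (u, ε) =
        P (n - 1) (u, 0) - E n (u, 0) ^ 2 * Q (n - 1) (u, 0))
    (hne : ∃ u ∈ ball t0 (r / 12) ×ˢ ball w2 s,
      (∃ j ≤ n, deriv (fun ε => E j (u, ε)) 0 ≠ 0) ∨
      (∃ j < n, deriv (fun ε => P j (u, ε)) 0 ≠ 0) ∨
      (∃ j < n, deriv (fun ε => Q j (u, ε)) 0 ≠ 0)) :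
    ∃ δ', 0 < δ' ∧ δ' ≤ δ ∧ ∃ (al q : ℕ → (ℂ × ℂ) × ℂ → ℂ) (g : ℕ → ℂ × ℂ → ℂ),
      (∀ j ≤ n, AnalyticOnNhd ℂ (al j) ((ball t0 r ×ˢ ball w2 s) ×ˢ ball 0 δ')) ∧
      (∀ j ≤ n, AnalyticOnNhd ℂ (q j) ((ball t0 r ×ˢ ball w2 s) ×ˢ ball 0 δ')) ∧
      (∀ j < n, AnalyticOnNhd ℂ (g j) (ball x0 (‖c‖ * r / 4) ×ˢ ball 0 δ')) ∧
      (∃ j < n, ∃ x ∈ ball x0 (‖c‖ * r / 4), g j (x, 0) ≠ 0) ∧
      (∀ j ≤ n, ∀ u ∈ ball t0 r ×ˢ ball w2 s, al j (u, 0) = A j u) ∧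
      (∀ u ∈ ball t0 r ×ˢ ball w2 s, ∀ ε ∈ ball (0 : ℂ) δ',
        al 0 (u, ε) = A 0 u ∧ al n (u, ε) = A n u ∧ q 0 (u, ε) = q 0 (u, 0) ∧
        q n (u, ε) = q n (u, 0)) ∧
      (∀ j < n, ∀ u ∈ ball t0 (r / 12) ×ˢ ball w2 s, ∀ ε ∈ ball (0 : ℂ) δ',
        (al j (u, ε) + al (j + 1) (u, ε)) / 2 ∈ ball x0 (‖c‖ * r / 4) ∧
        Refl (fun x => h x + ε * g j (x, ε)) (al j (u, ε)) (q j (u, ε)) (al (j + 1) (u, ε))
          (q (j + 1) (u, ε))) := by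
  obtain ⟨δ', hδ', hδδ, al, q, H, aal, aq, aH, hE, hal0, hH0, hψm, hmain, hq, hconst⟩ :=
    word D hn hr hs hδ hc hV hKV hA h1 h2
  have hr12 : ball t0 (r / 12) ⊆ ball t0 r := ball_subset_ball (by linarith)
  have hsub : ball t0 (r / 12) ×ˢ ball w2 s ⊆ ball t0 r ×ˢ ball w2 s :=
    Set.prod_mono hr12 Subset.rfl
  have hBV : ball t0 r ×ˢ ball w2 s ⊆ V :=
    (Set.prod_mono ball_subset_closedBall ball_subset_closedBall).trans hKV
  have hm : ball (0 : ℂ) δ' ⊆ ball 0 δ := ball_subset_ball hδδ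
  have h0' : (0 : ℂ) ∈ ball (0 : ℂ) δ' := mem_ball_self hδ'
  -- division
  have hdiv : ∀ j, j < n → ∃ g : ℂ × ℂ → ℂ,
      AnalyticOnNhd ℂ g (ball x0 (‖c‖ * r / 4) ×ˢ ball 0 δ') ∧
      ∀ p ∈ ball x0 (‖c‖ * r / 4) ×ˢ ball (0 : ℂ) δ', H j p = h p.1 + p.2 * g p := by
    intro j hj
    have hF : AnalyticOnNhd ℂ (fun p : ℂ × ℂ => H j p - h p.1)
        (ball x0 (‖c‖ * r / 4) ×ˢ ball 0 δ') := fun p hp =>
      (aH j hj p hp).sub ((hh p.1 hp.1).comp_of_eq analyticAt_fst rfl)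
    obtain ⟨g, hg1, hg2, -⟩ := div_global isOpen_ball hδ' hF
      (fun x hx => sub_eq_zero.2 (hH0 j hj x hx))
    exact ⟨g, hg1, fun p hp => by rw [← hg2 p hp]; ring⟩
  choose! g hga hgH using hdiv
  have hslice : ∀ j < n, ∀ ε ∈ ball (0 : ℂ) δ', ∀ x ∈ ball x0 (‖c‖ * r / 4),
      (fun x => H j (x, ε)) =ᶠ[𝓝 x] fun x => h x + ε * g j (x, ε) := by
    intro j hj ε hε x hx
    filter_upwards [isOpen_ball.mem_nhds hx] with y hy
    exact hgH j hj (y, ε) ⟨hy, hε⟩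
  have hRefl : ∀ j < n, ∀ u ∈ ball t0 (r / 12) ×ˢ ball w2 s, ∀ ε ∈ ball (0 : ℂ) δ',
        (al j (u, ε) + al (j + 1) (u, ε)) / 2 ∈ ball x0 (‖c‖ * r / 4) ∧
        Refl (fun x => h x + ε * g j (x, ε)) (al j (u, ε)) (q j (u, ε)) (al (j + 1) (u, ε))
          (q (j + 1) (u, ε)) := by
    intro j hj u hu ε hε
    have hx := hψm j hj u hu ε hε
    refine ⟨hx, ?_⟩
    have h3 := (hmain j hj u (hsub hu) ε hε hx).1
    have h4 := hslice j hj ε hε _ hx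
    unfold Refl at h3 ⊢
    rw [← h4.deriv_eq, ← h4.self_of_nhds]
    exact h3
  have hout : ∀ u ∈ ball t0 r ×ˢ ball w2 s, ∀ ε ∈ ball (0 : ℂ) δ',
        al 0 (u, ε) = A 0 u ∧ al n (u, ε) = A n u ∧ q 0 (u, ε) = q 0 (u, 0) ∧
        q n (u, ε) = q n (u, 0) := by
    intro u hu ε hε
    have hV' := hBV hu
    have b1 := hconst 0 (Nat.zero_le _) u hu ε hε (o1 u hV' ε (hm hε))
    have b2 := hconst n le_rfl u hu ε hε (o3 u hV' ε (hm hε))
    have c1 := (hq 0 hn u hu ε hε).1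
    have c2 := (hq 0 hn u hu 0 h0').1
    have c3 := (hq (n - 1) (by omega) u hu ε hε).2
    have c4 := (hq (n - 1) (by omega) u hu 0 h0').2
    rw [Nat.sub_add_cancel hn] at c3 c4
    have e1 : ∀ a : ℂ, (I * exp (I * a)) ^ 2 = -(exp (I * a)) ^ 2 := by
      intro a
      linear_combination (exp (I * a)) ^ 2 * I_sq
    have e2 : ∀ a : ℂ, exp (I * a) * exp (-(I * a)) = 1 := by
      intro a
      rw [← Complex.exp_add]; simp
    refine ⟨b1, b2, ?_, ?_⟩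
    · have d1 := o2 u hV' ε (hm hε)
      rw [hE 0 (Nat.zero_le _) u hu ε hε, hE 0 (Nat.zero_le _) u hu 0 h0', b1,
        hal0 0 (Nat.zero_le _) u hu, e1] at d1
      rw [c1, c2, b1, hal0 0 (Nat.zero_le _) u hu]
      linear_combination (exp (-(I * A 0 u)) / 2) * d1 +
        (-(Q 0 (u, ε) - Q 0 (u, 0)) * exp (I * A 0 u) / 2) * e2 (A 0 u)
    · have d1 := o4 u hV' ε (hm hε)
      rw [hE n le_rfl u hu ε hε, hE n le_rfl u hu 0 h0', b2,
        hal0 n le_rfl u hu, e1] at d1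
      rw [c3, c4, b2, hal0 n le_rfl u hu]
      linear_combination (exp (-(I * A n u)) / 2) * d1 +
        (-(Q (n - 1) (u, ε) - Q (n - 1) (u, 0)) * exp (I * A n u) / 2) * e2 (A n u)
  refine ⟨δ', hδ', hδδ, al, q, g, aal, aq, hga, ?_, hal0, hout, hRefl⟩
  -- nontriviality
  by_contra hcon
  push Not at hcon
  obtain ⟨u, hu, hu2⟩ := hne
  have huB := hsub hu
  have hball : ∀ᶠ ε in 𝓝 (0 : ℂ), ε ∈ ball (0 : ℂ) δ' := isOpen_ball.mem_nhds h0'
  have dal : ∀ j ≤ n, DifferentiableAt ℂ (fun ε => al j (u, ε)) 0 := fun j hj =>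
    (analyticAt_ε (aal j hj (u, 0) ⟨huB, h0'⟩)).differentiableAt
  have step : ∀ j < n, deriv (fun ε => al j (u, ε)) 0 = 0 → deriv (fun ε => q j (u, ε)) 0 = 0 →
      deriv (fun ε => al (j + 1) (u, ε)) 0 = 0 ∧ deriv (fun ε => q (j + 1) (u, ε)) 0 = 0 ∧
      deriv (fun ε => h ((al j (u, ε) + al (j + 1) (u, ε)) / 2) +
        ε * g j ((al j (u, ε) + al (j + 1) (u, ε)) / 2, ε)) 0 = 0 ∧
      deriv (fun ε => deriv (fun x => h x + ε * g j (x, ε))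
        ((al j (u, ε) + al (j + 1) (u, ε)) / 2)) 0 = 0 := by
    intro j hj ha0 hs0
    have hx := (hRefl j hj u hu 0 h0').1
    refine var_step (a := fun ε => al j (u, ε)) (a' := fun ε => al (j + 1) (u, ε))
      (s := fun ε => q j (u, ε)) (s' := fun ε => q (j + 1) (u, ε)) (dal j hj.le) (dal (j + 1) hj)
      (hh _ hx) (hga j hj _ ⟨hx, h0'⟩) ?_ ?_ (hρ _ hx) ?_ ha0 hs0
    · filter_upwards [isOpen_ball.mem_nhds hx] with y hy using hcon j hj y hy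
    · filter_upwards [hball] with ε hε using (hRefl j hj u hu ε hε).2
    · rw [hal0 j hj.le u huB, hal0 (j + 1) hj u huB]
      exact hsin j hj u hu
  have hall : ∀ j ≤ n, deriv (fun ε => al j (u, ε)) 0 = 0 ∧
      deriv (fun ε => q j (u, ε)) 0 = 0 := by
    intro j
    induction j with
    | zero =>
      intro _
      constructor
      · have : (fun ε => al 0 (u, ε)) =ᶠ[𝓝 0] fun _ => A 0 u := by
          filter_upwards [hball] with ε hε using (hout u huB ε hε).1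
        rw [this.deriv_eq, deriv_const]
      · have : (fun ε => q 0 (u, ε)) =ᶠ[𝓝 0] fun _ => q 0 (u, 0) := by
          filter_upwards [hball] with ε hε using (hout u huB ε hε).2.2.1
        rw [this.deriv_eq, deriv_const]
    | succ i ih =>
      intro hi
      obtain ⟨g1, g2⟩ := ih (by omega)
      obtain ⟨g3, g4, -, -⟩ := step i hi g1 g2
      exact ⟨g3, g4⟩
  have hEd : ∀ j ≤ n, deriv (fun ε => E j (u, ε)) 0 = 0 := fun j hj =>
    deriv_zero_of_exp (dal j hj) (hall j hj).1 (by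
      filter_upwards [hball] with ε hε using hE j hj u huB ε hε)
  have hPQ : ∀ j < n, deriv (fun ε => P j (u, ε)) 0 = 0 ∧ deriv (fun ε => Q j (u, ε)) 0 = 0 := by
    intro j hj
    obtain ⟨a1, a2⟩ := hall j hj.le
    obtain ⟨b1, b2, b3, b4⟩ := step j hj a1 a2
    have hx := (hRefl j hj u hu 0 h0').1
    have dψ : HasDerivAt (fun ε => (al j (u, ε) + al (j + 1) (u, ε)) / 2) 0 0 := by
      have := ((dal j hj.le).hasDerivAt.add (dal (j + 1) hj).hasDerivAt).div_const 2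
      rw [a1, b1, add_zero, zero_div] at this
      exact this
    -- the two functions are differentiable
    have aψ : AnalyticAt ℂ (fun ε => (al j (u, ε) + al (j + 1) (u, ε)) / 2) 0 :=
      ((analyticAt_ε (aal j hj.le (u, 0) ⟨huB, h0'⟩)).add
        (analyticAt_ε (aal (j + 1) hj (u, 0) ⟨huB, h0'⟩))).div analyticAt_const (by norm_num)
    have aF : AnalyticAt ℂ (fun ε => H j ((al j (u, ε) + al (j + 1) (u, ε)) / 2, ε)) 0 :=
      (aH j hj _ ⟨hx, h0'⟩).comp_of_eq (aψ.prod analyticAt_id) rfl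
    have aG : AnalyticAt ℂ (fun ε => fderiv ℂ (H j)
        ((al j (u, ε) + al (j + 1) (u, ε)) / 2, ε) (1, 0)) 0 := by
      have c1 : AnalyticAt ℂ (fun p => fderiv ℂ (H j) p (1, 0))
          ((al j (u, 0) + al (j + 1) (u, 0)) / 2, 0) :=
        ((ContinuousLinearMap.apply ℂ ℂ ((1 : ℂ), (0 : ℂ))).analyticAt _).comp
          (aH j hj _ ⟨hx, h0'⟩).fderiv
      exact c1.comp_of_eq (aψ.prod analyticAt_id) rfl
    have hderH : ∀ ε ∈ ball (0 : ℂ) δ', deriv (fun x => H j (x, ε))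
        ((al j (u, ε) + al (j + 1) (u, ε)) / 2) = fderiv ℂ (H j)
        ((al j (u, ε) + al (j + 1) (u, ε)) / 2, ε) (1, 0) := by
      intro ε hε
      have hx' := (hRefl j hj u hu ε hε).1
      have c1 : HasDerivAt (fun x : ℂ => ((x, ε) : ℂ × ℂ)) (1, 0)
          ((al j (u, ε) + al (j + 1) (u, ε)) / 2) :=
        (hasDerivAt_id _).prodMk (hasDerivAt_const _ _)
      exact ((aH j hj _ ⟨hx', hε⟩).differentiableAt.hasFDerivAt.comp_hasDerivAt_of_eq _ c1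
        rfl).deriv
    have e1 : (fun ε => H j ((al j (u, ε) + al (j + 1) (u, ε)) / 2, ε)) =ᶠ[𝓝 0]
        fun ε => h ((al j (u, ε) + al (j + 1) (u, ε)) / 2) +
          ε * g j ((al j (u, ε) + al (j + 1) (u, ε)) / 2, ε) := by
      filter_upwards [hball] with ε hε
      exact hgH j hj (_, ε) ⟨(hRefl j hj u hu ε hε).1, hε⟩
    have e2 : (fun ε => fderiv ℂ (H j) ((al j (u, ε) + al (j + 1) (u, ε)) / 2, ε) (1, 0)) =ᶠ[𝓝 0]
        fun ε => deriv (fun x => h x + ε * g j (x, ε))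
          ((al j (u, ε) + al (j + 1) (u, ε)) / 2) := by
      filter_upwards [hball] with ε hε
      rw [← hderH ε hε]
      exact (hslice j hj ε hε _ (hRefl j hj u hu ε hε).1).deriv_eq
    have f1 : HasDerivAt (fun ε => H j ((al j (u, ε) + al (j + 1) (u, ε)) / 2, ε)) 0 0 := by
      have := aF.differentiableAt.hasDerivAt
      rwa [e1.deriv_eq, b3] at this
    have f2 : HasDerivAt (fun ε => fderiv ℂ (H j)
        ((al j (u, ε) + al (j + 1) (u, ε)) / 2, ε) (1, 0)) 0 0 := by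
      have := aG.differentiableAt.hasDerivAt
      rwa [e2.deriv_eq, b4] at this
    constructor
    · have k1 := (f1.add (f2.const_mul I)).mul ((dψ.const_mul I).cexp)
      have k2 : (fun ε => P j (u, ε)) =ᶠ[𝓝 0] fun ε =>
          (H j ((al j (u, ε) + al (j + 1) (u, ε)) / 2, ε) + I * fderiv ℂ (H j)
            ((al j (u, ε) + al (j + 1) (u, ε)) / 2, ε) (1, 0)) *
            exp (I * ((al j (u, ε) + al (j + 1) (u, ε)) / 2)) := by
        filter_upwards [hball] with ε hε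
        rw [← hderH ε hε]
        exact (hmain j hj u huB ε hε (hRefl j hj u hu ε hε).1).2.1
      have k3 := (k1.congr_of_eventuallyEq k2).deriv
      rw [k3]
      ring
    · have k1 := (f1.sub (f2.const_mul I)).mul ((dψ.const_mul I).neg.cexp)
      have k2 : (fun ε => Q j (u, ε)) =ᶠ[𝓝 0] fun ε =>
          (H j ((al j (u, ε) + al (j + 1) (u, ε)) / 2, ε) - I * fderiv ℂ (H j)
            ((al j (u, ε) + al (j + 1) (u, ε)) / 2, ε) (1, 0)) *
            exp (-(I * ((al j (u, ε) + al (j + 1) (u, ε)) / 2))) := by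
        filter_upwards [hball] with ε hε
        rw [← hderH ε hε]
        exact (hmain j hj u huB ε hε (hRefl j hj u hu ε hε).1).2.2
      have k3 := (k1.congr_of_eventuallyEq k2).deriv
      rw [k3]
      ring
  rcases hu2 with ⟨j, hj, h3⟩ | ⟨j, hj, h3⟩ | ⟨j, hj, h3⟩
  · exact h3 (hEd j hj)
  · exact h3 (hPQ j hj).1
  · exact h3 (hPQ j hj).2

end Vale.Agent.P097.H835.Mir
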