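import Vale.Agent.P097.H835.F2bC
import Vale.Agent.P097.H835.Ord
import Vale.Agent.P097.H690.Fct.Word
import Vale.Agent.P097.H531.Flat.Defo
import Vale.Agent.P097.H407.Hol

/-!
# P097 / FCT, row F2b: `ROut → FlatOut`

`ROut` = the base ring of periodic analytic functions (650); the deformation is 531's `defo`.
-/

namespace Vale.Agent.P097.H835.Mir

open Metric Set Filter Topology Complex
open Vale.Agent.P097.H456.Fct (nat Let Word SWord NBox Box Ctx Outer AlgOn F2b mem_Box0 Box_mono)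
open Vale.Agent.P097.H690 (vp vq en mo let_left let_right word_vp word_vq word_en word_refl)
open Vale.Agent.P097.H531 (b2 co2 hco2 hcb2 wd Wd Zf Def1 defo)
open Vale.Agent.P097.H650 (evM Ind evM_X evM_C)

set_option linter.unusedSectionVars false

/-- names of the chain data -/
abbrev K0 (n : ℕ) : Type := Fin n ⊕ Fin n ⊕ Fin (n + 1)

/-- the chain data -/
noncomputable def zc (H : ℂ → ℂ) (α : ℂ → ℂ → ℂ) (n : ℕ) : K0 n → ℂ × ℂ → ℂ
  | Sum.inl j => vp H (nat α 1 j) (nat α 1 (j + 1))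
  | Sum.inr (Sum.inl j) => vq H (nat α 1 j) (nat α 1 (j + 1))
  | Sum.inr (Sum.inr j) => en (nat α 1 j)

/-- Output of the base ring part. -/
def ROut : Prop := ∀ {κ Λ : ℝ} {H Φ : ℂ → ℂ} {r e : ℝ} {α p : ℂ → ℂ → ℂ} {J : ℂ → ℂ},
  Ctx κ Λ H Φ r e α p J → ∀ {n : ℕ} {Ω : Set (ℂ × ℂ)} {a0 q0 an qn : ℂ × ℂ → ℂ},
  H456.Fct.Dom Ω → Outer Ω α p n a0 q0 an qn →
  ¬ (∀ j ≤ n, AlgOn Ω (fun u => exp (I * nat α 1 j u)) ∧ AlgOn Ω (nat p 1 j)) →
  ∃ (t0 : ℝ) (r0 : ℝ), 0 < n ∧ NBox H r e α p 1 n t0 r0 ∧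
    ∃ (R : Type) (_ : CommRing R) (_ : IsDomain R) (_ : CharZero R) (ev : R →+* (ℂ × ℂ → ℂ))
      (dl : Fin 2 → R → R),
      (∀ c, AnalyticOnNhd ℂ (ev c) (Box t0 r0)) ∧
      (∀ a c, ∀ u ∈ Box (t0 : ℂ) r0, ev (dl a c) u = fderiv ℂ (ev c) u (b2 a)) ∧
      (∀ c, (∀ u ∈ Box (t0 : ℂ) r0, ev c u = 0) → c = 0) ∧
      (∃ c0 c1 c2 c3 : R, ∀ u ∈ Box (t0 : ℂ) r0, ev c0 u = en (nat α 1 0) u ∧
        ev c1 u = mo (nat α 1 0) (nat p 1 0) u ∧ ev c2 u = en (nat α 1 n) u ∧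
        ev c3 u = mo (nat α 1 n) (nat p 1 n) u) ∧
      (∃ N, ∀ (m : ℕ) (f : Fin m → K0 n × List (Fin 2)),
        Ind ev (Box t0 r0) (fun u i => wd b2 (zc H α n) (f i).1 (f i).2 u) → m ≤ N) ∧
      ∃ k0, Ind ev (Box t0 r0) (fun u (_ : Unit) => zc H α n k0 u)

theorem flatOut_of (hR : ROut) : FlatOut := by
  intro κ Λ H Φ r e α p J T n Ω a0 q0 an qn hΩ hO hne
  obtain ⟨t0, r0, hn, nb, R, iR1, iR2, iR3, ev, dl, hev, hdl, hinj, ⟨c0, c1, c2, c3, hc⟩,
    ⟨N, hN⟩, ⟨k0, hk0⟩⟩ := hR T hΩ hO hne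
  set U : Set (ℂ × ℂ) := Box (t0 : ℂ) r0 with hU
  have hUo : IsOpen U := isOpen_ball.prod isOpen_ball
  have hUp : IsPreconnected U := ((convex_ball _ _).prod (convex_ball _ _)).isPreconnected
  have hUn : U.Nonempty := ⟨_, mem_Box0 nb.pos⟩
  have W := nb.sw.toWord
  have hz : ∀ k, AnalyticOnNhd ℂ (zc H α n k) U := by
    rintro (j | j | j)
    · exact word_vp W j.2
    · exact word_vq W j.2
    · exact word_en W (Nat.lt_succ_iff.1 j.2)
  obtain ⟨D, hDa, hDne, hD⟩ := defo hUo hUp hUn hev hco2 hcb2 hdl hz hinj hN 1 k0 hk0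
  obtain ⟨t1, r1, hr1, hsub, hDnz⟩ := Ord.exists_t1 nb.pos hDa hDne
  refine ⟨t1, r1, hn, nb.mono hr1 hsub, ?_⟩
  intro ρ w2 s hρ hs hsw hK
  have hKc : IsCompact (closedBall (t1 : ℂ) ρ ×ˢ closedBall w2 s) :=
    (isCompact_closedBall _ _).prod (isCompact_closedBall _ _)
  have hKv : Convex ℝ (closedBall (t1 : ℂ) ρ ×ˢ closedBall w2 s) :=
    (convex_closedBall _ _).prod (convex_closedBall _ _)
  have hu0 : ((t1 : ℂ), w2) ∈ closedBall (t1 : ℂ) ρ ×ˢ closedBall w2 s :=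
    ⟨mem_closedBall_self hρ.le, mem_closedBall_self hs.le⟩
  obtain ⟨V', hVo, hVc, hKV, hVU, δ, hδ, zd, hdef, hinit⟩ := hD _ hKc hKv (hK.trans hsub)
    (by
      intro u hu
      refine hDnz u (hK hu) ?_
      intro h0
      have h1 := hu.2
      rw [h0, mem_closedBall, dist_eq_norm, zero_sub, norm_neg] at h1
      linarith) _ hu0
  set V : Set (ℂ × ℂ) := V' ∩ Box (t1 : ℂ) r1 with hVdef
  have hVopen : IsOpen V := hVo.inter (isOpen_ball.prod isOpen_ball)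
  have hVV : ∀ u ∈ V, u ∈ V' := fun u hu => hu.1
  have hzd : ∀ k, AnalyticOnNhd ℂ (zd k) (V ×ˢ ball (0 : ℂ) δ) := by
    rintro k ⟨u, ε⟩ ⟨hu, hε⟩
    exact Hol.analyticAt_of_differentiableOn (hVo.prod isOpen_ball) (hdef.hol k)
      (show (u, ε) ∈ V' ×ˢ ball (0 : ℂ) δ from ⟨hVV u hu, hε⟩)
  -- the names
  let iP : ∀ j, j < n → K0 n := fun j hj => Sum.inl ⟨j, hj⟩
  let iQ : ∀ j, j < n → K0 n := fun j hj => Sum.inr (Sum.inl ⟨j, hj⟩)
  let iE : ∀ j, j ≤ n → K0 n := fun j hj => Sum.inr (Sum.inr ⟨j, Nat.lt_succ_of_le hj⟩)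
  let E : ℕ → (ℂ × ℂ) × ℂ → ℂ := fun j => if h : j ≤ n then zd (iE j h) else 0
  let P : ℕ → (ℂ × ℂ) × ℂ → ℂ := fun j => if h : j < n then zd (iP j h) else 0
  let Q : ℕ → (ℂ × ℂ) × ℂ → ℂ := fun j => if h : j < n then zd (iQ j h) else 0
  have hE : ∀ j (h : j ≤ n), E j = zd (iE j h) := fun j h => dif_pos h
  have hP : ∀ j (h : j < n), P j = zd (iP j h) := fun j h => dif_pos h
  have hQ : ∀ j (h : j < n), Q j = zd (iQ j h) := fun j h => dif_pos h
  -- zeroth and first order coordinates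
  let x0 : K0 n → MvPolynomial (Wd (K0 n) (Fin 2) 1) R := fun k =>
    MvPolynomial.X ⟨(k, []), Nat.zero_le _⟩
  let x1 : K0 n → Fin 2 → MvPolynomial (Wd (K0 n) (Fin 2) 1) R := fun k a =>
    MvPolynomial.X ⟨(k, [a]), le_rfl⟩
  have e0 : ∀ (z : K0 n → ℂ × ℂ → ℂ) u k, evM ev u (Zf b2 z 1 u) (x0 k) = z k u := by
    intro z u k
    exact evM_X ev u (Zf b2 z 1 u) _
  have e1 : ∀ (z : K0 n → ℂ × ℂ → ℂ) u k a,
      evM ev u (Zf b2 z 1 u) (x1 k a) = fderiv ℂ (z k) u (b2 a) := by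
    intro z u k a
    exact evM_X ev u (Zf b2 z 1 u) _
  have hincl : ∀ j (hj : j + 1 < n), ∀ u ∈ V, ∀ ε ∈ ball (0 : ℂ) δ,
      P (j + 1) (u, ε) - E (j + 1) (u, ε) ^ 2 * Q (j + 1) (u, ε) =
        P j (u, ε) - E (j + 1) (u, ε) ^ 2 * Q j (u, ε) := by
    intro j hj u hu ε hε
    have hj' : j < n := by omega
    have h1 := hdef.rel (x0 (iP (j + 1) hj) - x0 (iE (j + 1) hj.le) ^ 2 * x0 (iQ (j + 1) hj) -
      (x0 (iP j hj') - x0 (iE (j + 1) hj.le) ^ 2 * x0 (iQ j hj'))) (by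
        intro v hv
        simp only [map_sub, map_mul, map_pow, e0]
        have h2 := let_left (W.lt (j + 1) hj v hv)
        have h3 := let_right (W.lt j hj' v hv)
        exact sub_eq_zero.2 (h2.trans h3.symm)) ε hε u (hVV u hu)
    simp only [map_sub, map_mul, map_pow, e0] at h1
    rw [hP _ hj, hP _ hj', hQ _ hj, hQ _ hj', hE _ hj.le]
    exact sub_eq_zero.1 h1
  have hlaw : ∀ j (hj : j < n), ∀ u ∈ V, ∀ ε ∈ ball (0 : ℂ) δ,
      fderiv ℂ (fun u' => P j (u', ε)) u =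
        (E j (u, ε) * E (j + 1) (u, ε)) • fderiv ℂ (fun u' => Q j (u', ε)) u := by
    intro j hj u hu ε hε
    have h1 : ∀ a : Fin 2, fderiv ℂ (fun u' => P j (u', ε)) u (b2 a) =
        (E j (u, ε) * E (j + 1) (u, ε)) * fderiv ℂ (fun u' => Q j (u', ε)) u (b2 a) := by
      intro a
      have h2 := hdef.rel (x1 (iP j hj) a - x0 (iE j hj.le) * x0 (iE (j + 1) hj) *
        x1 (iQ j hj) a) (by
          intro v hv
          simp only [map_sub, map_mul, e0, e1]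
          exact sub_eq_zero.2 (word_refl W hj hv (b2 a))) ε hε u (hVV u hu)
      simp only [map_sub, map_mul, e0, e1] at h2
      rw [hP _ hj, hQ _ hj, hE _ hj.le, hE (j + 1) hj]
      exact sub_eq_zero.1 h2
    have h2 := h1 0
    have h3 := h1 1
    have hb0 : b2 0 = ((1 : ℂ), (0 : ℂ)) := rfl
    have hb1 : b2 1 = ((0 : ℂ), (1 : ℂ)) := rfl
    rw [hb0] at h2
    rw [hb1] at h3
    ext
    · simpa using h2
    · simpa using h3
  have hconst : ∀ (c : R) (Z : MvPolynomial (Wd (K0 n) (Fin 2) 1) R),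
      (∀ v ∈ U, evM ev v (Zf b2 (zc H α n) 1 v) Z = ev c v) →
      ∀ u ∈ V, ∀ ε ∈ ball (0 : ℂ) δ,
        evM ev u (Zf b2 (fun k u => zd k (u, ε)) 1 u) Z =
          evM ev u (Zf b2 (fun k u => zd k (u, 0)) 1 u) Z := by
    intro c Z hZ
    have h1 : ∀ u ∈ V, ∀ ε ∈ ball (0 : ℂ) δ,
        evM ev u (Zf b2 (fun k u => zd k (u, ε)) 1 u) Z = ev c u := by
      intro u hu ε hε
      have h2 := hdef.rel (Z - MvPolynomial.C c) (by
        intro v hv
        rw [map_sub, evM_C, hZ v hv, sub_self]) ε hε u (hVV u hu)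
      rw [map_sub, evM_C] at h2
      exact sub_eq_zero.1 h2
    intro u hu ε hε
    rw [h1 u hu ε hε, h1 u hu 0 (mem_ball_self hδ)]
  refine ⟨V, hVopen, fun u hu => ⟨hKV hu, hK hu⟩, fun u hu => hu.2, δ, hδ, E, P, Q, ?_, ?_, ?_,
    ?_, ?_, ?_⟩
  · refine ⟨?_, ?_, ?_, hincl, hlaw, ?_, ?_, ?_⟩
    · intro j hj
      rw [hE j hj]
      exact hzd _
    · intro j hj
      rw [hP j hj]
      exact hzd _
    · intro j hj
      rw [hQ j hj]
      exact hzd _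
    · intro j hj u hu
      rw [hE j hj, hdef.base _ u (hVV u hu)]
      rfl
    · intro j hj u hu
      rw [hP j hj, hdef.base _ u (hVV u hu)]
      rfl
    · intro j hj u hu
      rw [hQ j hj, hdef.base _ u (hVV u hu)]
      rfl
  · intro u hu ε hε
    have h1 := hconst c0 (x0 (iE 0 (Nat.zero_le _))) (by
      intro v hv
      rw [e0, (hc v hv).1]
      rfl) u hu ε hε
    rw [e0, e0] at h1
    rw [hE 0 (Nat.zero_le _)]
    exact h1
  · intro u hu ε hε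
    have h1 := hconst c1 (x0 (iP 0 hn) - x0 (iE 0 (Nat.zero_le _)) ^ 2 * x0 (iQ 0 hn)) (by
      intro v hv
      simp only [map_sub, map_mul, map_pow, e0]
      rw [(hc v hv).2.1]
      exact let_left (W.lt 0 hn v hv)) u hu ε hε
    simp only [map_sub, map_mul, map_pow, e0] at h1
    rw [hE 0 (Nat.zero_le _), hP 0 hn, hQ 0 hn]
    exact h1
  · intro u hu ε hε
    have h1 := hconst c2 (x0 (iE n le_rfl)) (by
      intro v hv
      rw [e0, (hc v hv).2.2.1]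
      rfl) u hu ε hε
    rw [e0, e0] at h1
    rw [hE n le_rfl]
    exact h1
  · intro u hu ε hε
    have hn1 : n - 1 < n := by omega
    have h1 := hconst c3 (x0 (iP (n - 1) hn1) - x0 (iE n le_rfl) ^ 2 * x0 (iQ (n - 1) hn1)) (by
      intro v hv
      simp only [map_sub, map_mul, map_pow, e0]
      rw [(hc v hv).2.2.2]
      have h2 := let_right (W.lt (n - 1) hn1 v hv)
      have h3 : n - 1 + 1 = n := Nat.sub_add_cancel hn
      simp only [h3] at h2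
      have h4 : zc H α n (iP (n - 1) hn1) v = (H ((nat α 1 (n - 1) v + nat α 1 n v) / 2) +
          I * deriv H ((nat α 1 (n - 1) v + nat α 1 n v) / 2)) *
            exp (I * ((nat α 1 (n - 1) v + nat α 1 n v) / 2)) := by
        show vp H (nat α 1 (n - 1)) (nat α 1 (n - 1 + 1)) v = _
        rw [h3]; rfl
      have h5 : zc H α n (iQ (n - 1) hn1) v = (H ((nat α 1 (n - 1) v + nat α 1 n v) / 2) -
          I * deriv H ((nat α 1 (n - 1) v + nat α 1 n v) / 2)) *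
            exp (-(I * ((nat α 1 (n - 1) v + nat α 1 n v) / 2))) := by
        show vq H (nat α 1 (n - 1)) (nat α 1 (n - 1 + 1)) v = _
        rw [h3]; rfl
      have h6 : zc H α n (iE n le_rfl) v = I * exp (I * nat α 1 n v) := rfl
      rw [h4, h5, h6]
      exact h2) u hu ε hε
    simp only [map_sub, map_mul, map_pow, e0] at h1
    rw [hE n le_rfl, hP (n - 1) hn1, hQ (n - 1) hn1]
    exact h1
  · have h1 : deriv (fun ε => zd k0 (((t1 : ℂ), w2), ε)) 0 ≠ 0 := by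
      have h2 : (fun ε => zd k0 (((t1 : ℂ), w2), ε)) =ᶠ[𝓝 0]
          fun ε => zc H α n k0 ((t1 : ℂ), w2) + ε := by
        filter_upwards [isOpen_ball.mem_nhds (mem_ball_self hδ)] with ε hε using hinit ε hε
      rw [h2.deriv_eq, deriv_const_add, deriv_id'']
      exact one_ne_zero
    obtain ⟨j, hj⟩ | ⟨j, hj⟩ | ⟨j, hj⟩ := k0
    · exact Or.inr (Or.inl ⟨j, hj, by rw [hP j hj]; exact h1⟩)
    · exact Or.inr (Or.inr ⟨j, hj, by rw [hQ j hj]; exact h1⟩)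
    · exact Or.inl ⟨j, Nat.lt_succ_iff.1 hj, by rw [hE j (Nat.lt_succ_iff.1 hj)]; exact h1⟩

/-- **F2b from the base ring part.** -/
theorem f2b_of_R (hR : ROut) : F2b := f2b_of (flatOut_of hR)

end Vale.Agent.P097.H835.Mir
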