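import Vale.Agent.P097.H456.Fct.B2
import Vale.Agent.P097.H835.Var

/-!
# P097 / FCT, row F2b: from a deformed chain on a bidisc to 456's `Def`

`FlatOut` is what the algebraic part (finite type, flat patch) has to deliver; `f2b_of` is
`FlatOut → F2b`.
-/

namespace Vale.Agent.P097.H835.Mir

open Metric Set Filter Topology Complex
open Vale.Agent.P097.H456.Fct

set_option linter.unusedSectionVars false

/-- Output of the algebraic part. -/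
def FlatOut : Prop := ∀ {κ Λ : ℝ} {H Φ : ℂ → ℂ} {r e : ℝ} {α p : ℂ → ℂ → ℂ} {J : ℂ → ℂ},
  Ctx κ Λ H Φ r e α p J → ∀ {n : ℕ} {Ω : Set (ℂ × ℂ)} {a0 q0 an qn : ℂ × ℂ → ℂ},
  H456.Fct.Dom Ω → Outer Ω α p n a0 q0 an qn →
  ¬ (∀ j ≤ n, AlgOn Ω (fun u => exp (I * nat α 1 j u)) ∧ AlgOn Ω (nat p 1 j)) →
  ∃ (t1 : ℝ) (r0 : ℝ), 0 < n ∧ NBox H r e α p 1 n t1 r0 ∧
    ∀ (ρ : ℝ) (w2 : ℂ) (s : ℝ), 0 < ρ → 0 < s → s < ‖w2‖ →
      closedBall (t1 : ℂ) ρ ×ˢ closedBall w2 s ⊆ Box t1 r0 →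
      ∃ V : Set (ℂ × ℂ), IsOpen V ∧ closedBall (t1 : ℂ) ρ ×ˢ closedBall w2 s ⊆ V ∧
        V ⊆ Box t1 r0 ∧ ∃ δ : ℝ, 0 < δ ∧ ∃ E P Q : ℕ → (ℂ × ℂ) × ℂ → ℂ,
          DChain n V (0 : ℂ) δ (nat α 1) H E P Q ∧
          (∀ u ∈ V, ∀ ε ∈ ball (0 : ℂ) δ, E 0 (u, ε) = E 0 (u, 0)) ∧
          (∀ u ∈ V, ∀ ε ∈ ball (0 : ℂ) δ, P 0 (u, ε) - E 0 (u, ε) ^ 2 * Q 0 (u, ε) =
            P 0 (u, 0) - E 0 (u, 0) ^ 2 * Q 0 (u, 0)) ∧
          (∀ u ∈ V, ∀ ε ∈ ball (0 : ℂ) δ, E n (u, ε) = E n (u, 0)) ∧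
          (∀ u ∈ V, ∀ ε ∈ ball (0 : ℂ) δ,
            P (n - 1) (u, ε) - E n (u, ε) ^ 2 * Q (n - 1) (u, ε) =
              P (n - 1) (u, 0) - E n (u, 0) ^ 2 * Q (n - 1) (u, 0)) ∧
          ((∃ j ≤ n, deriv (fun ε => E j (((t1 : ℂ), w2), ε)) 0 ≠ 0) ∨
            (∃ j < n, deriv (fun ε => P j (((t1 : ℂ), w2), ε)) 0 ≠ 0) ∨
            (∃ j < n, deriv (fun ε => Q j (((t1 : ℂ), w2), ε)) 0 ≠ 0))

theorem nat_zero {α : ℂ → ℂ → ℂ} (j : ℕ) (t : ℂ) : nat α 1 j (t, 0) = α t 0 := by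
  simp [nat]

theorem f2b_of (hx : FlatOut) : F2b := by
  intro κ Λ H Φ r e α p J T n Ω a0 q0 an qn hΩ hO hne
  obtain ⟨t1, r0, hn, nb, hX⟩ := hx T hΩ hO hne
  have hr0 := nb.pos
  have W := nb.sw
  have h0B : ((t1 : ℂ), (0 : ℂ)) ∈ Box t1 r0 := mem_Box0 hr0
  set x0 : ℂ := α t1 0 with hx0
  have hmid0 : ∀ j, ∀ t : ℂ, H456.Fct.mid (nat α 1 j) (nat α 1 (j + 1)) (t, 0) = α t 0 := by
    intro j t
    rw [H456.Fct.mid, nat_zero, nat_zero]
    ring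
  set c : ℂ := deriv (fun t => α t 0) t1 with hcdef
  have hc0 : c ≠ 0 := by
    have h1 := W.vt 0 hn _ h0B
    have h2 : (fun t => H456.Fct.mid (nat α 1 0) (nat α 1 (0 + 1)) (t, ((t1 : ℂ), (0 : ℂ)).2)) =
        fun t => α t 0 := funext fun t => hmid0 0 t
    rw [h2] at h1
    exact h1
  have hcn : 0 < ‖c‖ := norm_pos_iff.2 hc0
  have hman : ∀ j < n, ∀ u ∈ Box t1 r0, AnalyticAt ℂ (H456.Fct.mid (nat α 1 j) (nat α 1 (j + 1))) u :=
    fun j hj u hu => ((W.aA j hj.le u hu).add (W.aA (j + 1) hj u hu)).div analyticAt_const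
      (by norm_num)
  have hder : ∀ j < n, ∀ u ∈ Box t1 r0,
      deriv (fun t => H456.Fct.mid (nat α 1 j) (nat α 1 (j + 1)) (t, u.2)) u.1 =
        fderiv ℂ (H456.Fct.mid (nat α 1 j) (nat α 1 (j + 1))) u (1, 0) := fun j hj u hu =>
    (fderiv_10 (hman j hj u hu)).deriv
  -- the angle condition near `(t1, 0)`
  have E1 : ∀ᶠ u in 𝓝 ((t1 : ℂ), (0 : ℂ)), ∀ j ∈ Finset.range n,
      ‖fderiv ℂ (H456.Fct.mid (nat α 1 j) (nat α 1 (j + 1))) u (1, 0) - c‖ < ‖c‖ / 2 := by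
    rw [Filter.eventually_all_finset]
    intro j hj
    have hj' := Finset.mem_range.1 hj
    have h1 : ContinuousAt (fun u => fderiv ℂ (H456.Fct.mid (nat α 1 j) (nat α 1 (j + 1))) u (1, 0))
        ((t1 : ℂ), (0 : ℂ)) :=
      ((hman j hj' _ h0B).fderiv.continuousAt).clm_apply continuousAt_const
    have h2 : ‖fderiv ℂ (H456.Fct.mid (nat α 1 j) (nat α 1 (j + 1))) ((t1 : ℂ), (0 : ℂ)) (1, 0) - c‖ <
        ‖c‖ / 2 := by
      rw [← hder j hj' _ h0B]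
      have h3 : (fun t => H456.Fct.mid (nat α 1 j) (nat α 1 (j + 1)) (t, ((t1 : ℂ), (0 : ℂ)).2)) =
          fun t => α t 0 := funext fun t => hmid0 j t
      rw [h3]
      simp only [← hcdef, sub_self, norm_zero]
      positivity
    exact (h1.sub continuousAt_const).norm.eventually_lt continuousAt_const h2
  obtain ⟨ρ1, hρ1, hB1⟩ := Box_ev E1
  -- the mirror near `x0`
  have hHan : AnalyticAt ℂ H x0 := by
    have h1 := W.mA 0 hn _ h0B
    rwa [hmid0] at h1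
  have hcurv : H x0 + deriv (deriv H) x0 ≠ 0 := by
    have h1 := W.curv 0 hn _ h0B
    rwa [hmid0] at h1
  have E2 : ∀ᶠ z in 𝓝 x0, AnalyticAt ℂ H z ∧ H z + deriv (deriv H) z ≠ 0 :=
    hHan.eventually_analyticAt.and
      ((hHan.continuousAt.add hHan.deriv.deriv.continuousAt).eventually_ne hcurv)
  obtain ⟨R2, hR2, hB2⟩ := Metric.eventually_nhds_iff_ball.1 E2
  -- the radius
  set ρ : ℝ := min (ρ1 / 2) (min (r0 / 2) (R2 / ‖c‖)) with hρdef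
  have hρ : 0 < ρ := by positivity
  have hρ1' : ρ < ρ1 := lt_of_le_of_lt (min_le_left _ _) (by linarith)
  have hρr0 : ρ < r0 :=
    lt_of_le_of_lt ((min_le_right _ _).trans (min_le_left _ _)) (by linarith)
  have hρR : ‖c‖ * ρ / 4 ≤ R2 := by
    have h1 : ρ ≤ R2 / ‖c‖ := (min_le_right _ _).trans (min_le_right _ _)
    have h2 : ‖c‖ * ρ ≤ R2 := by
      rwa [le_div_iff₀ hcn, mul_comm] at h1
    have h3 : 0 ≤ ‖c‖ * ρ := by positivity
    linarith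
  have hR0 : 0 < ‖c‖ * ρ / 4 := by positivity
  have E3 : ∀ᶠ u in 𝓝 ((t1 : ℂ), (0 : ℂ)), ∀ j ∈ Finset.range n,
      ‖H456.Fct.mid (nat α 1 j) (nat α 1 (j + 1)) u - x0‖ < ‖c‖ * ρ / 8 := by
    rw [Filter.eventually_all_finset]
    intro j hj
    have hj' := Finset.mem_range.1 hj
    have h2 : ‖H456.Fct.mid (nat α 1 j) (nat α 1 (j + 1)) ((t1 : ℂ), (0 : ℂ)) - x0‖ < ‖c‖ * ρ / 8 := by
      rw [hmid0]
      simp only [← hx0, sub_self, norm_zero]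
      positivity
    exact ((hman j hj' _ h0B).continuousAt.sub continuousAt_const).norm.eventually_lt
      continuousAt_const h2
  obtain ⟨r3, hr3, hB3⟩ := Box_ev E3
  set r1 : ℝ := min r3 (ρ / 12) with hr1def
  have hr1 : 0 < r1 := by positivity
  have hr13 : r1 ≤ r3 := min_le_left _ _
  have hr1ρ : r1 ≤ ρ / 12 := min_le_right _ _
  set w2 : ℂ := ((r1 / 2 : ℝ) : ℂ) with hw2
  have hw2n : ‖w2‖ = r1 / 2 := by
    rw [hw2, Complex.norm_real, Real.norm_of_nonneg (by positivity)]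
  have hs : 0 < r1 / 4 := by positivity
  have hsw : r1 / 4 < ‖w2‖ := by rw [hw2n]; linarith
  have hwsub : closedBall w2 (r1 / 4) ⊆ ball (0 : ℂ) r1 := by
    intro w hw
    rw [mem_closedBall, dist_eq_norm] at hw
    rw [mem_ball_zero_iff]
    calc ‖w‖ = ‖(w - w2) + w2‖ := by congr 1; ring
      _ ≤ ‖w - w2‖ + ‖w2‖ := norm_add_le _ _
      _ < r1 := by rw [hw2n]; linarith
  have hwne : ∀ w ∈ closedBall w2 (r1 / 4), w ≠ 0 := by
    rintro w hw rfl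
    rw [mem_closedBall, dist_eq_norm, zero_sub, norm_neg] at hw
    linarith
  have hKB : closedBall (t1 : ℂ) ρ ×ˢ closedBall w2 (r1 / 4) ⊆ Box t1 r0 := by
    rintro u ⟨hu1, hu2⟩
    exact ⟨closedBall_subset_ball hρr0 hu1, ball_subset_ball (by linarith) (hwsub hu2)⟩
  obtain ⟨V, hVo, hKV, hVB, δ, hδ, E, P, Q, D, o1, o2, o3, o4, hne'⟩ :=
    hX ρ w2 (r1 / 4) hρ hs hsw hKB
  have hu2mem : ((t1 : ℂ), w2) ∈ ball (t1 : ℂ) (ρ / 12) ×ˢ ball w2 (r1 / 4) :=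
    ⟨mem_ball_self (by positivity), mem_ball_self hs⟩
  obtain ⟨δ', hδ', hδδ, al, q, g, aal, aq, ag, hgne, hal0, hout, hRefl⟩ := deformation D hn hρ hs hδ hc0
    hVo hKV (fun j hj u hu => W.aA j hj u (hVB hu))
    (by
      intro j hj t ht w hw
      have hu : (t, w) ∈ Box t1 ρ1 :=
        ⟨closedBall_subset_ball hρ1' ht, ball_subset_ball (by linarith) (hwsub hw)⟩
      have h1 := hB1 _ hu j (Finset.mem_range.2 hj)
      rw [← hder j hj _ (hKB ⟨ht, hw⟩)] at h1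
      exact h1)
    (by
      intro j hj w hw
      exact hB3 (t1, w) ⟨mem_ball_self hr3, ball_subset_ball hr13 (hwsub hw)⟩ j
        (Finset.mem_range.2 hj))
    (fun z hz => (hB2 z (ball_subset_ball hρR hz)).1)
    (fun z hz => (hB2 z (ball_subset_ball hρR hz)).2)
    (by
      rintro j hj u ⟨hu1, hu2⟩
      exact W.sn j hj u (hKB ⟨ball_subset_closedBall (ball_subset_ball (by linarith) hu1),
        ball_subset_closedBall hu2⟩) (hwne _ (ball_subset_closedBall hu2)))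
    o1 o2 o3 o4 ⟨_, hu2mem, hne'⟩
  have hsub12 : ball (t1 : ℂ) (ρ / 12) ⊆ ball (t1 : ℂ) ρ := ball_subset_ball (by linarith)
  have hboxmem : ∀ u ∈ ball (t1 : ℂ) (ρ / 12) ×ˢ ball w2 (r1 / 4), u ∈ Box t1 r0 := fun u hu =>
    hKB ⟨ball_subset_closedBall (hsub12 hu.1), ball_subset_closedBall hu.2⟩
  -- the nearby points
  have Ev : ∀ᶠ v in 𝓝 (((t1 : ℂ), w2), (0 : ℂ)),
      v.1 ∈ ball (t1 : ℂ) (ρ / 12) ×ˢ ball w2 (r1 / 4) ∧ v.2 ∈ ball (0 : ℂ) δ' :=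
    ((isOpen_ball.prod isOpen_ball).prod isOpen_ball).mem_nhds ⟨hu2mem, mem_ball_self hδ'⟩
  -- the lines at `ε = 0`
  have hz0 : ∀ j, (fun x => H x + (0 : ℂ) * g j (x, 0)) = H := by
    intro j; funext x; ring
  have hq0 : ∀ j < n, ∀ u ∈ ball (t1 : ℂ) (ρ / 12) ×ˢ ball w2 (r1 / 4),
      q j (u, 0) = nat p 1 j u ∧ q (j + 1) (u, 0) = nat p 1 (j + 1) u := by
    intro j hj u hu
    have h1 := (hRefl j hj u hu 0 (mem_ball_self hδ')).2
    rw [hz0, hal0 j hj.le u ⟨hsub12 hu.1, hu.2⟩, hal0 (j + 1) hj u ⟨hsub12 hu.1, hu.2⟩] at h1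
    have h2 := W.lt j hj u (hboxmem u hu)
    exact ⟨h1.1.trans h2.1.symm, h1.2.trans h2.2.symm⟩
  have hBoxsub : Box (t1 : ℂ) r1 ⊆ Box t1 r0 := Box_mono (by rw [dist_self]; linarith)
  have hmidB : ∀ j < n, ∀ u ∈ Box (t1 : ℂ) r1,
      H456.Fct.mid (nat α 1 j) (nat α 1 (j + 1)) u ∈ ball x0 (‖c‖ * ρ / 4) := by
    intro j hj u hu
    have h1 := hB3 u ⟨ball_subset_ball hr13 hu.1, ball_subset_ball hr13 hu.2⟩ j
      (Finset.mem_range.2 hj)
    rw [mem_ball, dist_eq_norm]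
    linarith
  refine ⟨t1, r1, ((t1 : ℂ), w2), fun j z => H z.1 + z.2 * g j z, al, q,
    nb.mono hr1 hBoxsub, ?_, ?_, ?_⟩
  · refine ⟨⟨mem_ball_self hr1, hwsub (mem_closedBall_self hs.le)⟩, ?_, ?_, ?_, ?_, ?_, ?_, ?_, ?_⟩
    · exact hwne w2 (mem_closedBall_self hs.le)
    · intro j hj u hu
      have hm := hmidB j hj u hu
      have h1 : AnalyticAt ℂ (fun z : ℂ × ℂ => H z.1)
          (H456.Fct.mid (nat α 1 j) (nat α 1 (j + 1)) u, 0) :=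
        ((hB2 _ (ball_subset_ball hρR hm)).1).comp_of_eq analyticAt_fst rfl
      exact h1.add (analyticAt_snd.mul (ag j hj _ ⟨hm, mem_ball_self hδ'⟩))
    · intro j hj u hu
      refine Eventually.of_forall fun z => ?_
      show H z + 0 * g j (z, 0) = H z
      ring
    · intro j hj
      exact aal j hj _ ⟨⟨mem_ball_self hρ, mem_ball_self hs⟩, mem_ball_self hδ'⟩
    · intro j hj
      exact aq j hj _ ⟨⟨mem_ball_self hρ, mem_ball_self hs⟩, mem_ball_self hδ'⟩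
    · intro j hj
      exact hal0 j hj _ ⟨mem_ball_self hρ, mem_ball_self hs⟩
    · filter_upwards [Ev] with v hv
      have h1 := hout v.1 ⟨hsub12 hv.1.1, hv.1.2⟩ v.2 hv.2
      exact ⟨h1.1, h1.2.2.1.trans (hq0 0 hn v.1 hv.1).1⟩
    · intro j hj
      filter_upwards [Ev] with v hv
      exact (hRefl j hj v.1 hv.1 v.2 hv.2).2
  · filter_upwards [Ev] with v hv
    have h1 := hout v.1 ⟨hsub12 hv.1.1, hv.1.2⟩ v.2 hv.2
    have h2 := (hq0 (n - 1) (by omega) v.1 hv.1).2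
    rw [Nat.sub_add_cancel hn] at h2
    exact ⟨h1.2.1, h1.2.2.2.trans h2⟩
  · obtain ⟨j, hj, x, hx, hgx⟩ := hgne
    refine ⟨j, hj, fun hcon => hgx ?_⟩
    have hgan : AnalyticOnNhd ℂ (fun z => g j (z, 0)) (ball x0 (‖c‖ * ρ / 4)) := fun z hz =>
      (ag j hj (z, 0) ⟨hz, mem_ball_self hδ'⟩).comp_of_eq (analyticAt_id.prod analyticAt_const) rfl
    have hev : (fun z => g j (z, 0)) =ᶠ[𝓝 x0] 0 := by
      filter_upwards [hcon, isOpen_ball.mem_nhds (mem_ball_self hR0)] with z hz hzb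
      have h1 : AnalyticAt ℂ (fun ε => g j (z, ε)) 0 :=
        (ag j hj (z, 0) ⟨hzb, mem_ball_self hδ'⟩).comp_of_eq
          (analyticAt_const.prod analyticAt_id) rfl
      have h2 : HasDerivAt (fun ε => H z + ε * g j (z, ε)) (g j (z, 0)) 0 := by
        have h3 : HasDerivAt (fun ε => ε * g j (z, ε))
            (1 * g j (z, 0) + 0 * deriv (fun ε => g j (z, ε)) 0) 0 :=
          (hasDerivAt_id (0 : ℂ)).mul h1.differentiableAt.hasDerivAt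
        rw [one_mul, zero_mul, add_zero] at h3
        exact h3.const_add _
      have h4 : disp (fun z => H z.1 + z.2 * g j z) z = g j (z, 0) := h2.deriv
      rw [← h4]
      exact hz
    exact hgan.eqOn_zero_of_preconnected_of_eventuallyEq_zero (convex_ball _ _).isPreconnected
      (mem_ball_self hR0) hev hx

end Vale.Agent.P097.H835.Mir
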