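import Vale.Agent.P097.H835.Sup

/-!
# Holomorphic ordinary differential equations: analytic dependence on the initial values

`exists_flow`: if `F : E → E` is analytic at `x₀`, the differential equation `Y' = F(Y)` has a
solution `Y (z, x)`, `Y (0, x) = x`, which is jointly analytic in `(z, x)` near `(0, x₀)`.
-/

namespace Vale.Agent.P097.H835

open Set Metric Topology Filter

variable {E : Type*} [NormedAddCommGroup E] [NormedSpace ℂ E]

/-- the primitive vanishing at `0` -/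
noncomputable def prim [CompleteSpace E] : C(I01, E) →L[ℂ] C(I01, E) :=
  LinearMap.mkContinuous
    { toFun := fun u => ⟨fun t => ∫ s in (0 : ℝ)..t, IccExtend zero_le_one u s, by
        have h : Continuous (IccExtend (zero_le_one (α := ℝ)) u) := u.continuous.Icc_extend'
        exact (intervalIntegral.continuous_primitive (fun a b => h.intervalIntegrable a b)
          0).comp continuous_subtype_val⟩
      map_add' := fun u v => by
        ext t
        have h (w : C(I01, E)) : Continuous (IccExtend (zero_le_one (α := ℝ)) w) :=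
          w.continuous.Icc_extend'
        simp only [ContinuousMap.coe_mk, ContinuousMap.add_apply]
        rw [← intervalIntegral.integral_add ((h u).intervalIntegrable _ _)
          ((h v).intervalIntegrable _ _)]
        rfl
      map_smul' := fun c u => by
        ext t
        simp only [ContinuousMap.coe_mk, ContinuousMap.smul_apply, RingHom.id_apply]
        rw [← intervalIntegral.integral_smul]
        rfl } 1 (fun u => by
      rw [one_mul]
      refine (ContinuousMap.norm_le _ (norm_nonneg _)).2 fun t => ?_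
      refine (intervalIntegral.norm_integral_le_of_norm_le_const (C := ‖u‖)
        fun s _ => u.norm_coe_le_norm _).trans ?_
      rw [sub_zero, abs_of_nonneg t.2.1]
      exact mul_le_of_le_one_right (norm_nonneg _) t.2.2)

theorem prim_apply [CompleteSpace E] (u : C(I01, E)) (t : I01) :
    prim u t = ∫ s in (0 : ℝ)..t, IccExtend zero_le_one u s := rfl

/-- the reparametrisation `s ↦ τ s` of the unit interval -/
def scal (τ : I01) : C(I01, I01) :=
  ⟨fun s => ⟨τ * s, mul_nonneg τ.2.1 s.2.1, mul_le_one₀ τ.2.2 s.2.1 s.2.2⟩, by fun_prop⟩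

theorem scal_apply (τ s : I01) : ((scal τ s : I01) : ℝ) = τ * s := rfl

/-- the map to be inverted -/
noncomputable def psi [CompleteSpace E] (F : E → E) (q : (ℂ × E) × C(I01, E)) :
    (ℂ × E) × C(I01, E) :=
  (q.1, q.2 - ContinuousLinearMap.const ℂ I01 q.1.2 - q.1.1 • prim (supO F q.2))

/-- the derivative of `psi` -/
noncomputable def psiD (w : C(I01, E)) : ((ℂ × E) × C(I01, E)) ≃L[ℂ] ((ℂ × E) × C(I01, E)) :=
  let S : (ℂ × E) →L[ℂ] C(I01, E) :=
    (ContinuousLinearMap.const ℂ I01).comp (ContinuousLinearMap.snd ℂ ℂ E) +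
      (ContinuousLinearMap.fst ℂ ℂ E).smulRight w
  ContinuousLinearEquiv.equivOfInverse
    ((ContinuousLinearMap.fst ℂ _ _).prod
      (ContinuousLinearMap.snd ℂ _ _ - S.comp (ContinuousLinearMap.fst ℂ _ _)))
    ((ContinuousLinearMap.fst ℂ _ _).prod
      (ContinuousLinearMap.snd ℂ _ _ + S.comp (ContinuousLinearMap.fst ℂ _ _)))
    (fun q => by ext <;> simp) (fun q => by ext <;> simp)

theorem analyticAt_psi [CompleteSpace E] {F : E → E} {x₀ : E} (hF : AnalyticAt ℂ F x₀) :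
    AnalyticAt ℂ (psi F) ((0, x₀), ContinuousMap.const I01 x₀) := by
  have h1 : AnalyticAt ℂ (fun q : (ℂ × E) × C(I01, E) => q.1) ((0, x₀),
    ContinuousMap.const I01 x₀) := analyticAt_fst
  have h2 : AnalyticAt ℂ (fun q : (ℂ × E) × C(I01, E) => q.2) ((0, x₀),
    ContinuousMap.const I01 x₀) := analyticAt_snd
  have h3 : AnalyticAt ℂ (fun q : (ℂ × E) × C(I01, E) =>
      ContinuousLinearMap.const ℂ I01 q.1.2) ((0, x₀), ContinuousMap.const I01 x₀) :=
    ((ContinuousLinearMap.const ℂ I01).comp ((ContinuousLinearMap.snd ℂ ℂ E).comp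
      (ContinuousLinearMap.fst ℂ (ℂ × E) C(I01, E)))).analyticAt _
  have h4 : AnalyticAt ℂ (fun q : (ℂ × E) × C(I01, E) => q.1.1) ((0, x₀),
      ContinuousMap.const I01 x₀) :=
    ((ContinuousLinearMap.fst ℂ ℂ E).comp
      (ContinuousLinearMap.fst ℂ (ℂ × E) C(I01, E))).analyticAt _
  have h5 : AnalyticAt ℂ (fun q : (ℂ × E) × C(I01, E) => prim (supO F q.2)) ((0, x₀),
      ContinuousMap.const I01 x₀) :=
    ((prim (E := E)).analyticAt _).comp ((analyticAt_supO hF).comp_of_eq h2 rfl)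
  exact h1.prod ((h2.sub h3).sub (h4.smul h5))

theorem hasStrictFDerivAt_psi [CompleteSpace E] {F : E → E} {x₀ : E} (hF : AnalyticAt ℂ F x₀) :
    HasStrictFDerivAt (psi F)
      (psiD (prim (supO F (ContinuousMap.const I01 x₀))) :
        ((ℂ × E) × C(I01, E)) →L[ℂ] ((ℂ × E) × C(I01, E)))
      ((0, x₀), ContinuousMap.const I01 x₀) := by
  have h2 : AnalyticAt ℂ (fun q : (ℂ × E) × C(I01, E) => q.2) ((0, x₀),
    ContinuousMap.const I01 x₀) := analyticAt_snd
  have h5 : AnalyticAt ℂ (fun q : (ℂ × E) × C(I01, E) => prim (supO F q.2)) ((0, x₀),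
      ContinuousMap.const I01 x₀) :=
    ((prim (E := E)).analyticAt _).comp ((analyticAt_supO hF).comp_of_eq h2 rfl)
  have h6 := h5.hasStrictFDerivAt
  have h7 : HasStrictFDerivAt (fun q : (ℂ × E) × C(I01, E) => q.1.1)
      ((ContinuousLinearMap.fst ℂ ℂ E).comp (ContinuousLinearMap.fst ℂ (ℂ × E) C(I01, E)))
      ((0, x₀), ContinuousMap.const I01 x₀) :=
    ((ContinuousLinearMap.fst ℂ ℂ E).comp
      (ContinuousLinearMap.fst ℂ (ℂ × E) C(I01, E))).hasStrictFDerivAt
  have h8 := h7.smul h6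
  have h9 : HasStrictFDerivAt (fun q : (ℂ × E) × C(I01, E) => q.1)
      (ContinuousLinearMap.fst ℂ (ℂ × E) C(I01, E)) ((0, x₀), ContinuousMap.const I01 x₀) :=
    (ContinuousLinearMap.fst ℂ (ℂ × E) C(I01, E)).hasStrictFDerivAt
  have h10 : HasStrictFDerivAt (fun q : (ℂ × E) × C(I01, E) => q.2)
      (ContinuousLinearMap.snd ℂ (ℂ × E) C(I01, E)) ((0, x₀), ContinuousMap.const I01 x₀) :=
    (ContinuousLinearMap.snd ℂ (ℂ × E) C(I01, E)).hasStrictFDerivAt
  have h11 : HasStrictFDerivAt (fun q : (ℂ × E) × C(I01, E) =>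
      ContinuousLinearMap.const ℂ I01 q.1.2)
      ((ContinuousLinearMap.const ℂ I01).comp ((ContinuousLinearMap.snd ℂ ℂ E).comp
      (ContinuousLinearMap.fst ℂ (ℂ × E) C(I01, E)))) ((0, x₀), ContinuousMap.const I01 x₀) :=
    ((ContinuousLinearMap.const ℂ I01).comp ((ContinuousLinearMap.snd ℂ ℂ E).comp
      (ContinuousLinearMap.fst ℂ (ℂ × E) C(I01, E)))).hasStrictFDerivAt
  have h12 := h9.prodMk ((h10.sub h11).sub h8)
  refine h12.congr_fderiv (ContinuousLinearMap.ext fun q => Prod.ext rfl ?_)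
  change q.2 - ContinuousLinearMap.const ℂ I01 q.1.2 -
      ((0 : ℂ) • fderiv ℂ (fun q => prim (supO F q.2)) ((0, x₀), ContinuousMap.const I01 x₀) q +
        q.1.1 • prim (supO F (ContinuousMap.const I01 x₀))) =
    q.2 - (ContinuousLinearMap.const ℂ I01 q.1.2 +
      q.1.1 • prim (supO F (ContinuousMap.const I01 x₀)))
  rw [zero_smul, zero_add]
  abel

omit [NormedSpace ℂ E] in
theorem iccExtend_comp_scal {w v : C(I01, E)} (τ : I01)
    (hv : ∀ s, v s = w (scal τ s)) {s : ℝ} (hs : s ∈ Icc (0 : ℝ) 1) :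
    IccExtend (zero_le_one (α := ℝ)) v s = IccExtend (zero_le_one (α := ℝ)) w (τ * s) := by
  have h1 : (τ : ℝ) * s ∈ Icc (0 : ℝ) 1 :=
    ⟨mul_nonneg τ.2.1 hs.1, mul_le_one₀ τ.2.2 hs.1 hs.2⟩
  rw [IccExtend_of_mem _ _ hs, IccExtend_of_mem _ _ h1, hv]
  rfl

theorem prim_comp_scal [CompleteSpace E] {w v : C(I01, E)} (τ : I01)
    (hv : ∀ s, v s = w (scal τ s)) (t : I01) :
    (τ : ℝ) • prim v t = prim w (scal τ t) := by
  rw [prim_apply, prim_apply]
  have h1 : ∫ s in (0 : ℝ)..t, IccExtend (zero_le_one (α := ℝ)) v s =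
      ∫ s in (0 : ℝ)..t, IccExtend (zero_le_one (α := ℝ)) w (τ * s) := by
    refine intervalIntegral.integral_congr fun s hs => ?_
    rw [uIcc_of_le t.2.1] at hs
    exact iccExtend_comp_scal τ hv ⟨hs.1, hs.2.trans t.2.2⟩
  rw [h1, intervalIntegral.smul_integral_comp_mul_left, mul_zero]
  rfl

/-- Local solutions of a holomorphic differential equation, jointly analytic in the time and
the initial value. -/
theorem exists_flow [CompleteSpace E] {F : E → E} {x₀ : E} (hF : AnalyticAt ℂ F x₀) :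
    ∃ r > 0, ∃ Y : ℂ × E → E, AnalyticOnNhd ℂ Y (ball (0, x₀) r) ∧
      (∀ x ∈ ball x₀ r, Y (0, x) = x) ∧
      (∀ q ∈ ball ((0 : ℂ), x₀) r, AnalyticAt ℂ F (Y q)) ∧
      ∀ z x, (z, x) ∈ ball ((0 : ℂ), x₀) r →
        HasDerivAt (fun z => Y (z, x)) (F (Y (z, x))) z := by
  obtain ⟨δ₁, hδ₁, hFan⟩ : ∃ δ > 0, ∀ y ∈ ball x₀ δ, AnalyticAt ℂ F y :=
    Metric.eventually_nhds_iff_ball.1 hF.eventually_analyticAt
  obtain ⟨c, hc⟩ : ∃ c, c = ContinuousMap.const I01 x₀ := ⟨_, rfl⟩
  have hD : HasStrictFDerivAt (psi F) (psiD (prim (supO F c)) :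
      ((ℂ × E) × C(I01, E)) →L[ℂ] ((ℂ × E) × C(I01, E))) ((0, x₀), c) := by
    rw [hc]; exact hasStrictFDerivAt_psi hF
  have hA : AnalyticAt ℂ (psi F) ((0, x₀), c) := by rw [hc]; exact analyticAt_psi hF
  have hval : psi F ((0, x₀), c) = ((0, x₀), 0) := by
    rw [hc, psi, zero_smul, sub_zero]
    exact Prod.ext rfl (sub_self _)
  obtain ⟨Φ, hΦ, hsrc⟩ : ∃ Φ : OpenPartialHomeomorph ((ℂ × E) × C(I01, E)) ((ℂ × E) × C(I01, E)),
      (∀ q, Φ q = psi F q) ∧ ((0, x₀), c) ∈ Φ.source :=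
    ⟨hD.toOpenPartialHomeomorph (psi F), fun _ => rfl, hD.mem_toOpenPartialHomeomorph_source⟩
  have hΦf : (Φ : (ℂ × E) × C(I01, E) → (ℂ × E) × C(I01, E)) = psi F := funext hΦ
  have htgt : ((0, x₀), (0 : C(I01, E))) ∈ Φ.target := by
    rw [← hval, ← hΦ]; exact Φ.map_source hsrc
  have hsymm : AnalyticAt ℂ Φ.symm ((0, x₀), 0) := by
    have := Φ.analyticAt_symm' hsrc (by rw [hΦf]; exact hA)
      (by rw [hΦf]; exact hD.hasFDerivAt.fderiv)
    rwa [hΦ, hval] at this
  obtain ⟨U, hUdef⟩ : ∃ U : ℂ × E → C(I01, E), ∀ q, U q = (Φ.symm (q, 0)).2 := ⟨_, fun _ => rfl⟩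
  have hUf : U = fun q => (Φ.symm (q, 0)).2 := funext hUdef
  have hU : AnalyticAt ℂ U (0, x₀) := by
    rw [hUf]
    have h1 : AnalyticAt ℂ (fun q : ℂ × E => (q, (0 : C(I01, E)))) (0, x₀) :=
      analyticAt_id.prod analyticAt_const
    have h2 : AnalyticAt ℂ (fun q : ℂ × E => Φ.symm (q, 0)) (0, x₀) := hsymm.comp_of_eq h1 rfl
    exact analyticAt_snd.comp h2
  have hU0 : U (0, x₀) = c := by
    rw [hUdef, ← hval, ← hΦ, Φ.left_inv hsrc]
  obtain ⟨δ₂, hδ₂, hball₂⟩ := Metric.isOpen_iff.1 Φ.open_source _ hsrc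
  obtain ⟨δ, hδ, hδ1, hδ2⟩ : ∃ δ > 0, δ ≤ δ₁ ∧ δ ≤ δ₂ :=
    ⟨min δ₁ δ₂, lt_min hδ₁ hδ₂, min_le_left _ _, min_le_right _ _⟩
  have e1 : ∀ᶠ q in 𝓝 ((0 : ℂ), x₀), AnalyticAt ℂ U q := hU.eventually_analyticAt
  have e2 : ∀ᶠ q in 𝓝 ((0 : ℂ), x₀), (q, (0 : C(I01, E))) ∈ Φ.target := by
    have h1 : ContinuousAt (fun q : ℂ × E => (q, (0 : C(I01, E)))) (0, x₀) := by fun_prop
    exact h1.eventually (Φ.open_target.mem_nhds htgt)
  have e3 : ∀ᶠ q in 𝓝 ((0 : ℂ), x₀), U q ∈ ball c δ := by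
    have h1 := hU.continuousAt.eventually (ball_mem_nhds (U (0, x₀)) hδ)
    rwa [hU0] at h1
  have e4 : ∀ᶠ q in 𝓝 ((0 : ℂ), x₀), q ∈ ball ((0 : ℂ), x₀) δ := ball_mem_nhds _ hδ
  obtain ⟨r, hr, hb⟩ := Metric.eventually_nhds_iff_ball.1 (e1.and (e2.and (e3.and e4)))
  -- the fixed point equation
  have hfix : ∀ q ∈ ball ((0 : ℂ), x₀) r,
      U q = ContinuousMap.const I01 q.2 + q.1 • prim (supO F (U q)) := by
    intro q hq
    have h1 := Φ.right_inv (hb q hq).2.1
    rw [hΦ] at h1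
    have h2 : (Φ.symm (q, 0)).1 = q := congrArg Prod.fst h1
    have h3 : (Φ.symm (q, 0)).2 - ContinuousLinearMap.const ℂ I01 (Φ.symm (q, 0)).1.2 -
        (Φ.symm (q, 0)).1.1 • prim (supO F (Φ.symm (q, 0)).2) = 0 := congrArg Prod.snd h1
    rw [← hUdef, h2] at h3
    have h4 := sub_eq_zero.1 h3
    rw [sub_eq_iff_eq_add] at h4
    rw [add_comm] at h4
    exact h4
  have hmem : ∀ q ∈ ball ((0 : ℂ), x₀) r, ∀ t, U q t ∈ ball x₀ δ := by
    intro q hq t
    have h1 : dist (U q) c < δ := (hb q hq).2.2.1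
    have h2 : dist (U q t) (c t) ≤ dist (U q) c := ContinuousMap.dist_apply_le_dist t
    have h3 : c t = x₀ := by rw [hc]; rfl
    rw [h3] at h2
    exact h2.trans_lt h1
  have hFc : ContinuousOn F (ball x₀ δ) := fun y hy =>
    (hFan y (ball_subset_ball hδ1 hy)).continuousAt.continuousWithinAt
  have hcont : ∀ q ∈ ball ((0 : ℂ), x₀) r, Continuous (F ∘ U q) := fun q hq =>
    hFc.comp_continuous (U q).continuous (hmem q hq)
  have hpt : ∀ q ∈ ball ((0 : ℂ), x₀) r, ∀ t, U q t = q.2 + q.1 • prim (supO F (U q)) t := by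
    intro q hq t
    have := congrArg (fun u : C(I01, E) => u t) (hfix q hq)
    exact this
  -- scaling
  have hmemscal : ∀ (l : ℂ) (x : E) (τ : I01), (l, x) ∈ ball ((0 : ℂ), x₀) r →
      ((τ : ℝ) • l, x) ∈ ball ((0 : ℂ), x₀) r := by
    intro l x τ hq
    rw [Metric.mem_ball, Prod.dist_eq, max_lt_iff] at hq ⊢
    refine ⟨lt_of_le_of_lt ?_ hq.1, hq.2⟩
    simp only [dist_zero_right, norm_smul, Real.norm_eq_abs, abs_of_nonneg τ.2.1]
    exact mul_le_of_le_one_left (norm_nonneg _) τ.2.2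
  have hscal : ∀ (l : ℂ) (x : E) (τ : I01), (l, x) ∈ ball ((0 : ℂ), x₀) r →
      U ((τ : ℝ) • l, x) = (U (l, x)).comp (scal τ) := by
    intro l x τ hq
    obtain ⟨v, hv⟩ : ∃ v, v = (U (l, x)).comp (scal τ) := ⟨_, rfl⟩
    have hvc : Continuous (F ∘ v) := by
      rw [hv]
      exact (hcont _ hq).comp (scal τ).continuous
    have hvs : ∀ s, supO F v s = supO F (U (l, x)) (scal τ s) := by
      intro s
      rw [supO_apply hvc, supO_apply (hcont _ hq), hv]
      rfl
    have h1 : psi F (((τ : ℝ) • l, x), v) = (((τ : ℝ) • l, x), 0) := by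
      refine Prod.ext rfl ?_
      change v - ContinuousMap.const I01 x - ((τ : ℝ) • l) • prim (supO F v) = 0
      ext t
      change v t - x - ((τ : ℝ) • l) • prim (supO F v) t = 0
      have h2 := hpt _ hq (scal τ t)
      have h3 : v t = U (l, x) (scal τ t) := by rw [hv]; rfl
      rw [h3, h2, ← prim_comp_scal τ hvs t]
      rw [smul_assoc, smul_comm]
      abel
    have h2 : (((τ : ℝ) • l, x), v) ∈ Φ.source := by
      refine hball₂ ?_
      rw [Metric.mem_ball, Prod.dist_eq, max_lt_iff]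
      refine ⟨?_, ?_⟩
      · exact lt_of_lt_of_le (hb _ (hmemscal l x τ hq)).2.2.2 hδ2
      · refine lt_of_lt_of_le ?_ hδ2
        refine lt_of_le_of_lt ?_ (hb _ hq).2.2.1
        rw [ContinuousMap.dist_le dist_nonneg]
        intro t
        rw [hv, hc]
        exact ContinuousMap.dist_apply_le_dist (f := U (l, x)) (g := ContinuousMap.const I01 x₀)
          (scal τ t)
    have h3 := Φ.left_inv h2
    rw [hΦ, h1] at h3
    rw [hUdef, h3, hv]
  have hone : ∀ (l : ℂ) (x : E) (τ : I01), (l, x) ∈ ball ((0 : ℂ), x₀) r →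
      U ((τ : ℝ) • l, x) 1 = U (l, x) τ := by
    intro l x τ hq
    rw [hscal l x τ hq]
    have : scal τ 1 = τ := Subtype.ext (by rw [scal_apply]; exact mul_one _)
    exact congrArg (U (l, x)) this
  refine ⟨r, hr, fun q => U q 1, ?_, ?_, ?_, ?_⟩
  · intro q hq
    exact ((ContinuousMap.evalCLM ℂ (1 : I01)).analyticAt _).comp (hb q hq).1
  · intro x hx
    have hq : ((0 : ℂ), x) ∈ ball ((0 : ℂ), x₀) r := by
      rw [Metric.mem_ball, Prod.dist_eq, max_lt_iff]
      exact ⟨by simpa using hr, hx⟩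
    have := hpt _ hq 1
    simpa using this
  · intro q hq
    exact hFan _ (ball_subset_ball hδ1 (hmem q hq 1))
  · intro z x hq
    -- the function and its derivative
    obtain ⟨f, hf⟩ : ∃ f : ℂ → E, ∀ z, f z = U (z, x) 1 := ⟨_, fun _ => rfl⟩
    have hff : f = fun z => U (z, x) 1 := funext hf
    have hfan : ∀ l, (l, x) ∈ ball ((0 : ℂ), x₀) r → AnalyticAt ℂ f l := by
      intro l hl
      rw [hff]
      have h1 : AnalyticAt ℂ (fun z : ℂ => (z, x)) l := analyticAt_id.prod analyticAt_const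
      have h2 : AnalyticAt ℂ (fun z : ℂ => U (z, x)) l := (hb _ hl).1.comp_of_eq h1 rfl
      exact ((ContinuousMap.evalCLM ℂ (1 : I01)).analyticAt _).comp h2
    have key : ∀ l, (l, x) ∈ ball ((0 : ℂ), x₀) r → l ≠ 0 → deriv f l = F (f l) := by
      intro l hl hl0
      have h1 : HasDerivAt f (deriv f l) l := (hfan l hl).differentiableAt.hasDerivAt
      have h2 : HasDerivAt (fun τ : ℝ => f (τ • l)) (l • deriv f l) 1 := by
        have h3 : HasDerivAt (fun τ : ℝ => τ • l) ((1 : ℝ) • l) 1 := by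
          simpa using (hasDerivAt_id (1 : ℝ)).smul_const l
        rw [one_smul] at h3
        have h4 : HasDerivAt f (deriv f l) ((1 : ℝ) • l) := by rw [one_smul]; exact h1
        exact h4.scomp (1 : ℝ) h3
      obtain ⟨w, hw⟩ : ∃ w, w = IccExtend (zero_le_one (α := ℝ)) (supO F (U (l, x))) := ⟨_, rfl⟩
      have hwc : Continuous w := by
        rw [hw]; exact (supO F (U (l, x))).continuous.Icc_extend'
      have h5 : HasDerivAt (fun τ : ℝ => x + l • ∫ s in (0 : ℝ)..τ, w s) (l • w 1) 1 := by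
        have := intervalIntegral.integral_hasDerivAt_right (hwc.intervalIntegrable 0 1)
          (hwc.stronglyMeasurableAtFilter _ _) hwc.continuousAt
        exact (this.const_smul l).const_add x
      have h6 : ∀ τ ∈ Icc (0 : ℝ) 1, f (τ • l) = x + l • ∫ s in (0 : ℝ)..τ, w s := by
        intro τ hτ
        rw [hf, hone l x ⟨τ, hτ⟩ hl, hpt _ hl, prim_apply, hw]
      have h7 := (h2.hasDerivWithinAt (s := Icc (0 : ℝ) 1)).congr
        (fun τ hτ => (h6 τ hτ).symm) (h6 1 (by simp)).symm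
      have h8 := (uniqueDiffOn_Icc (zero_lt_one (α := ℝ)) 1 (by simp)).eq_deriv _ h7
        (h5.hasDerivWithinAt (s := Icc (0 : ℝ) 1))
      have h9 : w 1 = F (f l) := by
        have h10 : w 1 = supO F (U (l, x)) 1 := by
          rw [hw, IccExtend_of_mem _ _ (by simp : (1 : ℝ) ∈ Icc (0 : ℝ) 1)]
          rfl
        rw [h10, supO_apply (hcont _ hl), hf]
      rw [h9] at h8
      exact smul_right_injective E hl0 h8
    have hz := hfan z hq
    have hfin : deriv f z = F (f z) := by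
      by_cases hz0 : z = 0
      · subst hz0
        have c1 : ContinuousAt (deriv f) 0 := hz.deriv.continuousAt
        have c2 : ContinuousAt (fun z => F (f z)) 0 := by
          have h1 : ContinuousAt F (f 0) := by
            rw [hf]
            exact (hFan _ (ball_subset_ball hδ1 (hmem _ hq 1))).continuousAt
          exact ContinuousAt.comp (g := F) h1 hz.continuousAt
        have h2 : ∀ᶠ l in 𝓝[≠] (0 : ℂ), deriv f l = F (f l) := by
          have h3 : ∀ᶠ l in 𝓝 (0 : ℂ), (l, x) ∈ ball ((0 : ℂ), x₀) r := by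
            have h4 : ContinuousAt (fun l : ℂ => (l, x)) 0 := by fun_prop
            exact h4.eventually (isOpen_ball.mem_nhds hq)
          filter_upwards [h3.filter_mono nhdsWithin_le_nhds, self_mem_nhdsWithin] with l hl hl0
          exact key l hl hl0
        exact tendsto_nhds_unique_of_eventuallyEq
          (c1.tendsto.mono_left nhdsWithin_le_nhds) (c2.tendsto.mono_left nhdsWithin_le_nhds) h2
      · exact key z hq hz0
    have h1 := hz.differentiableAt.hasDerivAt
    rw [hfin, hf] at h1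
    rw [hff] at h1
    exact h1

end Vale.Agent.P097.H835
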