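import Vale.Agent.P097.H835.Flow

/-!
# Holomorphic ordinary differential equations: complements

* `lie F n` : the iterated Lie derivatives of the identity along the vector field `F`; they are
  the derivatives of every solution (`iteratedDeriv_eq_lie`).
* `eqOn_of_solution` : uniqueness on preconnected open sets.
* `exists_solution` : explicit time and parameters.
* `exists_scalar` : scalar equations of higher order.
-/

namespace Vale.Agent.P097.H835

open Set Metric Topology Filter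

variable {E : Type*} [NormedAddCommGroup E] [NormedSpace ℂ E]

/-- iterated Lie derivatives of the identity -/
noncomputable def lie (F : E → E) : ℕ → E → E
  | 0 => fun x => x
  | n + 1 => fun x => fderiv ℂ (lie F n) x (F x)

theorem lie_zero (F : E → E) (x : E) : lie F 0 x = x := rfl

theorem lie_succ (F : E → E) (n : ℕ) (x : E) : lie F (n + 1) x = fderiv ℂ (lie F n) x (F x) := rfl

theorem lie_one (F : E → E) (x : E) : lie F 1 x = F x := by
  rw [lie_succ]
  have : lie F 0 = fun x => x := rfl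
  rw [this, fderiv_fun_id]
  rfl

theorem analyticAt_lie [CompleteSpace E] {F : E → E} {x : E} (hF : AnalyticAt ℂ F x) :
    ∀ n : ℕ, AnalyticAt ℂ (lie F n) x
  | 0 => analyticAt_id
  | n + 1 => by
    have h1 : AnalyticAt ℂ (fderiv ℂ (lie F n)) x := (analyticAt_lie hF n).fderiv
    exact ((ContinuousLinearMap.id ℂ (E →L[ℂ] E)).analyticAt_bilinear
      (fderiv ℂ (lie F n) x, F x)).comp_of_eq (h1.prod hF) rfl

/-- A vector valued analytic function all of whose derivatives vanish at a point vanishes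
near this point. -/
theorem eventually_eq_zero_of_iteratedDeriv [CompleteSpace E] {h : ℂ → E} {z₀ : ℂ}
    (hh : AnalyticAt ℂ h z₀) (h0 : ∀ n, iteratedDeriv n h z₀ = 0) : ∀ᶠ z in 𝓝 z₀, h z = 0 := by
  obtain ⟨p, r, hp⟩ := hh
  have hp0 : p = 0 := by
    ext1 n
    change p n = 0
    rw [← FormalMultilinearSeries.coeff_eq_zero]
    have h1 := hp.factorial_smul 1 n
    have h2 : iteratedFDeriv ℂ n h z₀ (fun _ => 1) = 0 := by
      rw [← iteratedDeriv_eq_iteratedFDeriv]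
      exact h0 n
    rw [h2, ← Nat.cast_smul_eq_nsmul ℂ] at h1
    exact (smul_eq_zero.1 h1).resolve_left (Nat.cast_ne_zero.2 (Nat.factorial_ne_zero n))
  rw [hp0] at hp
  exact hp.hasFPowerSeriesAt.eventually_eq_zero

/-- the derivatives of a solution -/
theorem iteratedDeriv_eq_lie [CompleteSpace E] {F : E → E} {f : ℂ → E} {S : Set ℂ} (hS : IsOpen S)
    (hF : ∀ z ∈ S, AnalyticAt ℂ F (f z)) (hf : ∀ z ∈ S, HasDerivAt f (F (f z)) z) :
    ∀ (n : ℕ), ∀ z ∈ S, iteratedDeriv n f z = lie F n (f z)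
  | 0, z, _ => by rw [iteratedDeriv_zero]; rfl
  | n + 1, z, hz => by
    have h1 : iteratedDeriv n f =ᶠ[𝓝 z] fun z => lie F n (f z) := by
      filter_upwards [hS.mem_nhds hz] with w hw
      exact iteratedDeriv_eq_lie hS hF hf n w hw
    rw [iteratedDeriv_succ, h1.deriv_eq]
    exact ((analyticAt_lie (hF z hz) n).differentiableAt.hasFDerivAt.comp_hasDerivAt z
      (hf z hz)).deriv

/-- uniqueness -/
theorem eqOn_of_solution [CompleteSpace E] {F : E → E} {f g : ℂ → E} {S : Set ℂ} (hS : IsOpen S)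
    (hc : IsPreconnected S) (hF : ∀ z ∈ S, AnalyticAt ℂ F (f z))
    (hf : ∀ z ∈ S, HasDerivAt f (F (f z)) z) (hG : ∀ z ∈ S, AnalyticAt ℂ F (g z))
    (hg : ∀ z ∈ S, HasDerivAt g (F (g z)) z) {z₀ : ℂ} (hz₀ : z₀ ∈ S) (h0 : f z₀ = g z₀) :
    EqOn f g S := by
  have hfa : AnalyticOnNhd ℂ f S :=
    DifferentiableOn.analyticOnNhd (fun z hz => (hf z hz).differentiableAt.differentiableWithinAt) hS
  have hga : AnalyticOnNhd ℂ g S :=
    DifferentiableOn.analyticOnNhd (fun z hz => (hg z hz).differentiableAt.differentiableWithinAt) hS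
  refine hfa.eqOn_of_preconnected_of_eventuallyEq hga hc hz₀ ?_
  have h3 := eventually_eq_zero_of_iteratedDeriv ((hfa z₀ hz₀).sub (hga z₀ hz₀)) fun n => by
    rw [iteratedDeriv_sub (hfa z₀ hz₀).contDiffAt (hga z₀ hz₀).contDiffAt,
      iteratedDeriv_eq_lie hS hF hf n z₀ hz₀, iteratedDeriv_eq_lie hS hG hg n z₀ hz₀, h0, sub_self]
  filter_upwards [h3] with z hz
  exact sub_eq_zero.1 hz

/-- Explicit time and parameters: `Y' = F(z, Y, e)`, `Y (t₀, y, e) = y`, jointly analytic. -/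
theorem exists_solution {P : Type*} [NormedAddCommGroup P] [NormedSpace ℂ P] [CompleteSpace E]
    [CompleteSpace P] {F : ℂ × E × P → E} {t₀ : ℂ} {y₀ : E} {e₀ : P}
    (hF : AnalyticAt ℂ F (t₀, y₀, e₀)) :
    ∃ r > 0, ∃ Y : ℂ × E × P → E, AnalyticOnNhd ℂ Y (ball (t₀, y₀, e₀) r) ∧
      (∀ y e, (t₀, y, e) ∈ ball (t₀, y₀, e₀) r → Y (t₀, y, e) = y) ∧
      (∀ z y e, (z, y, e) ∈ ball (t₀, y₀, e₀) r → AnalyticAt ℂ F (z, Y (z, y, e), e)) ∧
      ∀ z y e, (z, y, e) ∈ ball (t₀, y₀, e₀) r →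
        HasDerivAt (fun z => Y (z, y, e)) (F (z, Y (z, y, e), e)) z := by
  let F' : ℂ × E × P → ℂ × E × P := fun q => (1, F q, 0)
  have hF' : AnalyticAt ℂ F' (t₀, y₀, e₀) := analyticAt_const.prod (hF.prod analyticAt_const)
  obtain ⟨r, hr, Z, hZ, hZ0, hZF, hZd⟩ := exists_flow hF'
  -- the first and the last component of the flow
  have hb : ∀ z y e, (z, y, e) ∈ ball (t₀, y₀, e₀) r →
      (z - t₀, (t₀, y, e)) ∈ ball ((0 : ℂ), (t₀, y₀, e₀)) r := by
    intro z y e h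
    rw [Metric.mem_ball, Prod.dist_eq, max_lt_iff, Prod.dist_eq, max_lt_iff] at h
    rw [Metric.mem_ball, Prod.dist_eq, max_lt_iff, Prod.dist_eq, max_lt_iff, Prod.dist_eq,
      max_lt_iff]
    refine ⟨?_, by simpa using hr, h.2.1, h.2.2⟩
    rw [dist_zero_right, ← dist_eq_norm]
    exact h.1
  have hmem : ∀ s q, s ∈ ball (0 : ℂ) r → q ∈ ball (t₀, y₀, e₀) r →
      (s, q) ∈ ball ((0 : ℂ), (t₀, y₀, e₀)) r := by
    intro s q hs hq
    rw [Metric.mem_ball, Prod.dist_eq, max_lt_iff]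
    exact ⟨hs, hq⟩
  have hfst : ∀ q ∈ ball (t₀, y₀, e₀) r, ∀ s ∈ ball (0 : ℂ) r, (Z (s, q)).1 = q.1 + s := by
    intro q hq
    refine eqOn_of_solution (F := fun _ : ℂ => (1 : ℂ)) isOpen_ball
      (convex_ball (0 : ℂ) r).isPreconnected (fun _ _ => analyticAt_const) (fun s hs => ?_)
      (fun _ _ => analyticAt_const) (fun s hs => ?_) (mem_ball_self hr) ?_
    · exact (hZd s q (hmem s q hs hq)).fst
    · exact (hasDerivAt_id s).const_add q.1
    · rw [hZ0 q hq, add_zero]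
  have hthd : ∀ q ∈ ball (t₀, y₀, e₀) r, ∀ s ∈ ball (0 : ℂ) r, (Z (s, q)).2.2 = q.2.2 := by
    intro q hq
    refine eqOn_of_solution (F := fun _ : P => (0 : P)) isOpen_ball
      (convex_ball (0 : ℂ) r).isPreconnected (fun _ _ => analyticAt_const) (fun s hs => ?_)
      (fun _ _ => analyticAt_const) (fun s hs => ?_) (mem_ball_self hr) ?_
    · exact (hZd s q (hmem s q hs hq)).snd.snd
    · exact hasDerivAt_const s q.2.2
    · rw [hZ0 q hq]
  have hq' : ∀ z y e, (z, y, e) ∈ ball (t₀, y₀, e₀) r →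
      z - t₀ ∈ ball (0 : ℂ) r ∧ (t₀, y, e) ∈ ball (t₀, y₀, e₀) r := by
    intro z y e h
    have := hb z y e h
    rw [Metric.mem_ball, Prod.dist_eq, max_lt_iff] at this
    exact this
  have hval : ∀ z y e, (z, y, e) ∈ ball (t₀, y₀, e₀) r →
      Z (z - t₀, (t₀, y, e)) = (z, (Z (z - t₀, (t₀, y, e))).2.1, e) := by
    intro z y e h
    obtain ⟨h1, h2⟩ := hq' z y e h
    refine Prod.ext ?_ (Prod.ext rfl ?_)
    · rw [hfst _ h2 _ h1]
      exact add_sub_cancel t₀ z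
    · exact hthd _ h2 _ h1
  refine ⟨r, hr, fun q => (Z (q.1 - t₀, (t₀, q.2.1, q.2.2))).2.1, ?_, ?_, ?_, ?_⟩
  · rintro ⟨z, y, e⟩ hq
    have h1 : AnalyticAt ℂ (fun q : ℂ × E × P => (q.1 - t₀, (t₀, q.2.1, q.2.2))) (z, y, e) := by
      have a1 : AnalyticAt ℂ (fun q : ℂ × E × P => q.1) (z, y, e) := analyticAt_fst
      have a2 : AnalyticAt ℂ (fun q : ℂ × E × P => q.2) (z, y, e) := analyticAt_snd
      exact (a1.sub analyticAt_const).prod (analyticAt_const.prod
        ((analyticAt_fst.comp a2).prod (analyticAt_snd.comp a2)))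
    have h2 : AnalyticAt ℂ (fun q : ℂ × E × P => Z (q.1 - t₀, (t₀, q.2.1, q.2.2))) (z, y, e) :=
      (hZ _ (hb z y e hq)).comp_of_eq h1 rfl
    exact analyticAt_fst.comp (analyticAt_snd.comp h2)
  · intro y e hq
    change (Z (t₀ - t₀, (t₀, y, e))).2.1 = y
    rw [sub_self, hZ0 _ hq]
  · intro z y e hq
    have h1 := hZF _ (hb z y e hq)
    rw [hval z y e hq] at h1
    have h2 : AnalyticAt ℂ F' (z, (Z (z - t₀, (t₀, y, e))).2.1, e) := h1
    exact analyticAt_fst.comp (analyticAt_snd.comp h2)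
  · intro z y e hq
    have h1 := hZd _ _ (hb z y e hq)
    rw [hval z y e hq] at h1
    have h2 : HasDerivAt (fun z => Z (z - t₀, (t₀, y, e)))
        (F' (z, (Z (z - t₀, (t₀, y, e))).2.1, e)) z := HasDerivAt.comp_sub_const z t₀ h1
    exact h2.snd.fst

/-- the companion system of a scalar equation -/
noncomputable def companion {P : Type*} {n : ℕ} (φ : ℂ × (Fin (n + 1) → ℂ) × P → ℂ)
    (q : ℂ × (Fin (n + 1) → ℂ) × P) : Fin (n + 1) → ℂ := fun j =>
  if h : (j : ℕ) < n then q.2.1 ⟨j + 1, by omega⟩ else φ q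

theorem analyticAt_companion {P : Type*} [NormedAddCommGroup P] [NormedSpace ℂ P] {n : ℕ}
    {φ : ℂ × (Fin (n + 1) → ℂ) × P → ℂ} {q : ℂ × (Fin (n + 1) → ℂ) × P} (hφ : AnalyticAt ℂ φ q) :
    AnalyticAt ℂ (companion φ) q := by
  rw [analyticAt_pi_iff]
  intro j
  by_cases h : (j : ℕ) < n
  · have : (fun x => companion φ x j) = fun x : ℂ × (Fin (n + 1) → ℂ) × P =>
        x.2.1 ⟨j + 1, by omega⟩ := by
      funext x
      rw [companion, dif_pos h]
    rw [this]
    have h1 : AnalyticAt ℂ (fun x : ℂ × (Fin (n + 1) → ℂ) × P => x.2.1) q :=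
      analyticAt_fst.comp analyticAt_snd
    exact analyticAt_pi_iff.1 h1 _
  · have : (fun x => companion φ x j) = φ := by
      funext x
      rw [companion, dif_neg h]
    rw [this]
    exact hφ

theorem iteratedDeriv_of_companion {P : Type*} {n : ℕ} {φ : ℂ × (Fin (n + 1) → ℂ) × P → ℂ}
    {y : ℂ → Fin (n + 1) → ℂ} {e : P} {S : Set ℂ} (hS : IsOpen S)
    (hy : ∀ z ∈ S, HasDerivAt y (companion φ (z, y z, e)) z) :
    ∀ (j : ℕ) (hj : j < n + 1), ∀ z ∈ S, iteratedDeriv j (fun z => y z 0) z = y z ⟨j, hj⟩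
  | 0, _, z, _ => by rw [iteratedDeriv_zero]; rfl
  | j + 1, hj, z, hz => by
    have h1 : iteratedDeriv j (fun z => y z 0) =ᶠ[𝓝 z] fun z => y z ⟨j, by omega⟩ := by
      filter_upwards [hS.mem_nhds hz] with w hw
      exact iteratedDeriv_of_companion hS hy j (by omega) w hw
    rw [iteratedDeriv_succ, h1.deriv_eq]
    have h2 := (hasDerivAt_pi.1 (hy z hz) ⟨j, by omega⟩).deriv
    rw [h2, companion, dif_pos (show j < n by omega)]

theorem iteratedDeriv_of_companion_last {P : Type*} {n : ℕ}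
    {φ : ℂ × (Fin (n + 1) → ℂ) × P → ℂ} {y : ℂ → Fin (n + 1) → ℂ} {e : P} {S : Set ℂ}
    (hS : IsOpen S) (hy : ∀ z ∈ S, HasDerivAt y (companion φ (z, y z, e)) z) {z : ℂ}
    (hz : z ∈ S) : iteratedDeriv (n + 1) (fun z => y z 0) z = φ (z, y z, e) := by
  have h1 : iteratedDeriv n (fun z => y z 0) =ᶠ[𝓝 z] fun z => y z ⟨n, by omega⟩ := by
    filter_upwards [hS.mem_nhds hz] with w hw
    exact iteratedDeriv_of_companion hS hy n (by omega) w hw
  rw [iteratedDeriv_succ, h1.deriv_eq]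
  have h2 := (hasDerivAt_pi.1 (hy z hz) ⟨n, by omega⟩).deriv
  rw [h2, companion, dif_neg (lt_irrefl n)]

/-- Scalar equations `h^(n+1) = φ(z, h, h', ..., h^(n), e)`: the solution is jointly analytic in
the time, the initial jet and the parameters. -/
theorem exists_scalar {P : Type*} [NormedAddCommGroup P] [NormedSpace ℂ P] [CompleteSpace P]
    {n : ℕ} {φ : ℂ × (Fin (n + 1) → ℂ) × P → ℂ} {t₀ : ℂ} {a₀ : Fin (n + 1) → ℂ} {e₀ : P}
    (hφ : AnalyticAt ℂ φ (t₀, a₀, e₀)) :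
    ∃ r > 0, ∃ h : ℂ × (Fin (n + 1) → ℂ) × P → ℂ,
      AnalyticOnNhd ℂ h (ball (t₀, a₀, e₀) r) ∧
      (∀ a e, (t₀, a, e) ∈ ball (t₀, a₀, e₀) r → ∀ j : Fin (n + 1),
        iteratedDeriv j (fun z => h (z, a, e)) t₀ = a j) ∧
      (∀ z a e, (z, a, e) ∈ ball (t₀, a₀, e₀) r → AnalyticAt ℂ φ
        (z, (fun j : Fin (n + 1) => iteratedDeriv j (fun z => h (z, a, e)) z), e)) ∧
      ∀ z a e, (z, a, e) ∈ ball (t₀, a₀, e₀) r →
        iteratedDeriv (n + 1) (fun z => h (z, a, e)) z =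
          φ (z, (fun j : Fin (n + 1) => iteratedDeriv j (fun z => h (z, a, e)) z), e) := by
  -- shrink so that `φ` is analytic along the solutions
  obtain ⟨ρ, hρ, hρφ⟩ := Metric.eventually_nhds_iff_ball.1 hφ.eventually_analyticAt
  obtain ⟨r, hr, Y, hY, hY0, -, hYd⟩ := exists_solution (analyticAt_companion hφ)
  have hc : ContinuousAt (fun q : ℂ × (Fin (n + 1) → ℂ) × P => (q.1, Y q, q.2.2))
      (t₀, a₀, e₀) := by
    have h1 : ContinuousAt Y (t₀, a₀, e₀) := (hY _ (mem_ball_self hr)).continuousAt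
    fun_prop
  have h0 : Y (t₀, a₀, e₀) = a₀ := hY0 _ _ (mem_ball_self hr)
  have hev : ∀ᶠ q in 𝓝 (t₀, a₀, e₀), (q.1, Y q, q.2.2) ∈ ball (t₀, a₀, e₀) ρ := by
    refine hc.eventually (isOpen_ball.mem_nhds ?_)
    change (t₀, Y (t₀, a₀, e₀), e₀) ∈ ball (t₀, a₀, e₀) ρ
    rw [h0]
    exact mem_ball_self hρ
  obtain ⟨r₁, hr₁, hball⟩ := Metric.eventually_nhds_iff_ball.1 hev
  have hsub : ball (t₀, a₀, e₀) (min r r₁) ⊆ ball (t₀, a₀, e₀) r :=
    ball_subset_ball (min_le_left _ _)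
  have hsub₁ : ball (t₀, a₀, e₀) (min r r₁) ⊆ ball (t₀, a₀, e₀) r₁ :=
    ball_subset_ball (min_le_right _ _)
  have hopen : ∀ (a : Fin (n + 1) → ℂ) (e : P),
      IsOpen {z : ℂ | (z, a, e) ∈ ball (t₀, a₀, e₀) (min r r₁)} := fun a e =>
    isOpen_ball.preimage (by fun_prop)
  have hd : ∀ (a : Fin (n + 1) → ℂ) (e : P),
      ∀ z ∈ {z : ℂ | (z, a, e) ∈ ball (t₀, a₀, e₀) (min r r₁)},
        HasDerivAt (fun z => Y (z, a, e)) (companion φ (z, Y (z, a, e), e)) z :=
    fun a e z hz => hYd z a e (hsub hz)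
  have hjet : ∀ z a e, (z, a, e) ∈ ball (t₀, a₀, e₀) (min r r₁) →
      (fun j : Fin (n + 1) => iteratedDeriv j (fun z => Y (z, a, e) 0) z) = Y (z, a, e) := by
    intro z a e hq
    funext j
    exact iteratedDeriv_of_companion (hopen a e) (hd a e) j j.2 z hq
  refine ⟨min r r₁, lt_min hr hr₁, fun q => Y q 0, fun q hq => ?_, ?_, ?_, ?_⟩
  · exact analyticAt_pi_iff.1 (hY q (hsub hq)) 0
  · intro a e hq j
    have h1 := congrFun (hjet t₀ a e hq) j
    rw [hY0 a e (hsub hq)] at h1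
    exact h1
  · intro z a e hq
    rw [hjet z a e hq]
    exact hρφ _ (hball _ (hsub₁ hq))
  · intro z a e hq
    rw [hjet z a e hq]
    exact iteratedDeriv_of_companion_last (hopen a e) (hd a e) hq

end Vale.Agent.P097.H835
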