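import Mathlib

/-!
# Finite transcendence degree gives a finite differential family

`exists_gen`: in a field `M` with finitely many derivations, a finite set `Z` contained in a
differential subfield `L ≥ K` of finite transcendence degree over `K` is contained in a finite
set `G` such that `K(G)` is closed under the derivations; the elements of `G` are iterated
derivatives of elements of `Z`.
`exists_frac`: elements of `K(G)` as quotients of polynomials over a ring `R` with
`K = Frac R`.
-/

namespace Vale.Agent.P097.H835.Gen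

open Polynomial

variable {K M : Type*} [Field K] [Field M] [Algebra K M]

/-- Derivation of a value of a polynomial with coefficients in `F`. -/
theorem der_eval {F L' : IntermediateField K M} (d : Derivation ℤ M M) (hF : ∀ x ∈ F, d x ∈ L')
    {f : M} (hf : f ∈ L') (p : Polynomial F) :
    ∃ y ∈ L', d (aeval f p) = y + aeval f (derivative p) * d f := by
  induction p using Polynomial.induction_on' with
  | add p q hp hq =>
    obtain ⟨y, hy, h1⟩ := hp
    obtain ⟨z, hz, h2⟩ := hq
    refine ⟨y + z, L'.add_mem hy hz, ?_⟩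
    rw [map_add, map_add, h1, h2, derivative_add, map_add]
    ring
  | monomial n a =>
    refine ⟨f ^ n * d (a : M), L'.mul_mem (pow_mem hf n) (hF _ a.2), ?_⟩
    rw [aeval_monomial, derivative_monomial, aeval_monomial, Derivation.leibniz,
      Derivation.leibniz_pow]
    have h1 : (algebraMap F M) a = (a : M) := rfl
    have h2 : (algebraMap F M) (a * (n : F)) = (a : M) * n := by
      rw [map_mul, map_natCast]
      rfl
    rw [h1, h2]
    simp only [smul_eq_mul, nsmul_eq_mul]
    ring

/-- The derivative of an element algebraic over `F`. -/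
theorem der_mem [CharZero K] {F L' : IntermediateField K M} (hFL : F ≤ L')
    (d : Derivation ℤ M M) (hF : ∀ x ∈ F, d x ∈ L') {f : M} (hf : f ∈ L')
    (ha : IsAlgebraic F f) : d f ∈ L' := by
  have hch : CharZero F := charZero_of_injective_algebraMap (algebraMap K F).injective
  have hint : IsIntegral F f := ha.isIntegral
  obtain ⟨y, hy, h1⟩ := der_eval d hF hf (minpoly F f)
  rw [minpoly.aeval, map_zero] at h1
  have h2 : aeval f (derivative (minpoly F f)) ≠ 0 :=
    (minpoly.irreducible hint).separable.aeval_derivative_ne_zero (minpoly.aeval F f)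
  have h3 : aeval f (derivative (minpoly F f)) ∈ L' := by
    rw [aeval_eq_sum_range]
    refine sum_mem fun i _ => ?_
    rw [Algebra.smul_def]
    exact L'.mul_mem (hFL ((derivative (minpoly F f)).coeff i).2) (pow_mem hf i)
  have h4 : d f = -y / aeval f (derivative (minpoly F f)) := by
    field_simp
    linear_combination -h1
  rw [h4]
  exact L'.div_mem (L'.neg_mem hy) h3

/-- A derivation maps `K(G)` into `L'` if it maps `K` and `G` there. -/
theorem der_adjoin {L' : IntermediateField K M} (d : Derivation ℤ M M) {G : Set M}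
    (hK : ∀ k : K, ∃ k' : K, d (algebraMap K M k) = algebraMap K M k')
    (hG : G ⊆ L') (hd : ∀ g ∈ G, d g ∈ L') :
    ∀ x ∈ IntermediateField.adjoin K G, d x ∈ L' := by
  have key : ∀ x ∈ IntermediateField.adjoin K G, x ∈ L' ∧ d x ∈ L' := by
    intro x hx
    induction hx using IntermediateField.adjoin_induction with
    | mem x hx => exact ⟨hG hx, hd x hx⟩
    | algebraMap x =>
      obtain ⟨k', hk'⟩ := hK x
      rw [hk']
      exact ⟨L'.algebraMap_mem _, L'.algebraMap_mem _⟩
    | add x y _ _ hx hy =>
      rw [map_add]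
      exact ⟨L'.add_mem hx.1 hy.1, L'.add_mem hx.2 hy.2⟩
    | inv x _ hx =>
      refine ⟨L'.inv_mem hx.1, ?_⟩
      rw [Derivation.leibniz_inv]
      simp only [smul_eq_mul]
      exact L'.mul_mem (L'.neg_mem (pow_mem (L'.inv_mem hx.1) 2)) hx.2
    | mul x y _ _ hx hy =>
      rw [Derivation.leibniz]
      exact ⟨L'.mul_mem hx.1 hy.1, L'.add_mem (L'.mul_mem hx.1 hy.2) (L'.mul_mem hy.1 hx.2)⟩
  exact fun x hx => (key x hx).2

/-- **Finite differential family.** -/
theorem exists_gen [CharZero K] {κ : Type*} [Finite κ] (d : κ → Derivation ℤ M M)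
    (hK : ∀ a (k : K), ∃ k' : K, d a (algebraMap K M k) = algebraMap K M k')
    {L : IntermediateField K M} (hL : ∀ a, ∀ x ∈ L, d a x ∈ L) {N : ℕ}
    (hN : ∀ (m : ℕ) (f : Fin m → M), (∀ i, f i ∈ L) → AlgebraicIndependent K f → m ≤ N)
    (P : M → Prop) (hP : ∀ a x, P x → P (d a x)) (Z : Finset M) (hZ : ∀ z ∈ Z, z ∈ L ∧ P z) :
    ∃ G : Finset M, Z ⊆ G ∧ (∀ g ∈ G, g ∈ L ∧ P g) ∧
      ∀ g ∈ G, ∀ a, d a g ∈ IntermediateField.adjoin K (G : Set M) := by
  classical
  have := Fintype.ofFinite κ
  -- the good finite sets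
  let good : Finset M → Prop := fun G => Z ⊆ G ∧ ∀ g ∈ G, g ∈ L ∧ P g
  -- sizes of independent subsets of good sets are bounded
  let sz : ℕ → Prop := fun m => ∃ G : Finset M, good G ∧ ∃ B : Finset M, B ⊆ G ∧ B.card = m ∧
    AlgebraicIndepOn K id (B : Set M)
  have hb : ∀ m, sz m → m ≤ N := by
    rintro m ⟨G, hG, B, hBG, hBm, hB⟩
    let e : Fin m ≃ B := (Fintype.equivFinOfCardEq (by simpa using hBm)).symm
    refine hN m (fun i => (e i : M)) (fun i => (hG.2 _ (hBG (e i).2)).1) ?_
    have h1 : AlgebraicIndependent K (fun x : ((B : Set M) : Type _) => (x : M)) := hB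
    exact h1.comp _ e.injective
  have h0 : sz 0 := ⟨Z, ⟨Finset.Subset.refl _, hZ⟩, ∅, Finset.empty_subset _, rfl, by
    have : IsEmpty ((∅ : Finset M) : Set M) := by simp
    exact (algebraicIndependent_empty_type_iff (R := K)).2 (algebraMap K M).injective⟩
  obtain ⟨m, ⟨G, hG, B, hBG, hBm, hB⟩, hmax⟩ : ∃ m, sz m ∧ ∀ m', sz m' → m' ≤ m := by
    have hne : {m | sz m}.Nonempty := ⟨0, h0⟩
    have hbd : BddAbove {m | sz m} := ⟨N, fun m hm => hb m hm⟩
    exact ⟨sSup {m | sz m}, Nat.sSup_mem hne hbd, fun m' hm' => le_csSup hbd hm'⟩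
  -- every element of a good set is algebraic over `K(G)`
  have halg : ∀ G' : Finset M, good G' → G ⊆ G' → ∀ x ∈ G',
      IsAlgebraic (IntermediateField.adjoin K (G : Set M)) x := by
    intro G' hG' hGG x hx
    by_contra hcon
    have h1 : Transcendental (Algebra.adjoin K (id '' (B : Set M))) (id x) := by
      intro h2
      apply hcon
      rw [Set.image_id] at h2
      have h3 : Algebra.adjoin K (B : Set M) ≤
          (IntermediateField.adjoin K (G : Set M)).toSubalgebra :=
        Algebra.adjoin_le fun y hy => IntermediateField.subset_adjoin K _ (hBG hy)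
      obtain ⟨p, hp, hp0⟩ := h2
      refine ⟨p.map (Subalgebra.inclusion h3).toRingHom, ?_, ?_⟩
      · rw [Ne, Polynomial.map_eq_zero_iff (Subalgebra.inclusion_injective h3)]
        exact hp
      · rw [aeval_def, eval₂_map]
        exact hp0
    have hxB : x ∉ (B : Set M) := by
      intro hxB
      exact hcon (isAlgebraic_algebraMap
        (⟨x, IntermediateField.subset_adjoin K _ (hBG hxB)⟩ :
          IntermediateField.adjoin K (G : Set M)))
    have h4 := hB.insert h1
    have h5 : sz (m + 1) := by
      refine ⟨G', hG', insert x B, ?_, ?_, ?_⟩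
      · exact Finset.insert_subset hx (hBG.trans hGG)
      · rw [Finset.card_insert_of_notMem (by simpa using hxB), hBm]
      · rwa [Finset.coe_insert]
    have := hmax _ h5
    omega
  -- the next set
  let G1 : Finset M := G ∪ Finset.univ.biUnion fun a : κ => G.image (d a)
  have hGG1 : G ⊆ G1 := Finset.subset_union_left
  have hdG : ∀ g ∈ G, ∀ a, d a g ∈ G1 := fun g hg a =>
    Finset.mem_union_right _ (Finset.mem_biUnion.2 ⟨a, Finset.mem_univ a,
      Finset.mem_image_of_mem _ hg⟩)
  have hgood1 : good G1 := by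
    refine ⟨hG.1.trans hGG1, fun g hg => ?_⟩
    rcases Finset.mem_union.1 hg with h | h
    · exact hG.2 g h
    · obtain ⟨a, -, h⟩ := Finset.mem_biUnion.1 h
      obtain ⟨x, hx, rfl⟩ := Finset.mem_image.1 h
      exact ⟨hL a x (hG.2 x hx).1, hP a x (hG.2 x hx).2⟩
  refine ⟨G1, hgood1.1, hgood1.2, ?_⟩
  intro g hg a
  have hFL : IntermediateField.adjoin K (G : Set M) ≤ IntermediateField.adjoin K (G1 : Set M) :=
    IntermediateField.adjoin.mono K _ _ (by exact_mod_cast hGG1)
  refine der_mem hFL (d a) ?_ (IntermediateField.subset_adjoin K _ hg)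
    (halg G1 hgood1 hGG1 g hg)
  exact der_adjoin (d a) (hK a) (fun x hx => IntermediateField.subset_adjoin K _ (hGG1 hx))
    fun x hx => IntermediateField.subset_adjoin K _ (hdG x hx a)

/-- Elements of `K(F)` as fractions with coefficients in `R`. -/
theorem exists_frac {R : Type*} [CommRing R] [IsDomain R] [Algebra R K] [IsFractionRing R K]
    [Algebra R M] [IsScalarTower R K M] {ι : Type*} (F : ι → M) {x : M}
    (hx : x ∈ IntermediateField.adjoin K (Set.range F)) :
    ∃ A B : MvPolynomial ι R, MvPolynomial.aeval F B ≠ 0 ∧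
      x * MvPolynomial.aeval F B = MvPolynomial.aeval F A := by
  induction hx using IntermediateField.adjoin_induction with
  | mem x hx =>
    obtain ⟨i, rfl⟩ := hx
    exact ⟨MvPolynomial.X i, 1, by simp, by simp⟩
  | algebraMap k =>
    obtain ⟨a, b, hb, rfl⟩ := IsFractionRing.div_surjective (A := R) k
    have hb0 : b ≠ 0 := nonZeroDivisors.ne_zero hb
    have hbK : algebraMap R K b ≠ 0 := by
      rwa [Ne, IsFractionRing.to_map_eq_zero_iff]
    have hbM : algebraMap R M b ≠ 0 := by
      rw [IsScalarTower.algebraMap_apply R K M, Ne, map_eq_zero]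
      exact hbK
    refine ⟨MvPolynomial.C a, MvPolynomial.C b, by simpa using hbM, ?_⟩
    rw [MvPolynomial.aeval_C, MvPolynomial.aeval_C, map_div₀,
      ← IsScalarTower.algebraMap_apply R K M, ← IsScalarTower.algebraMap_apply R K M]
    field_simp
  | add x y _ _ hx hy =>
    obtain ⟨A, B, hB, h1⟩ := hx
    obtain ⟨A', B', hB', h2⟩ := hy
    refine ⟨A * B' + A' * B, B * B', by rw [map_mul]; exact mul_ne_zero hB hB', ?_⟩
    simp only [map_mul, map_add]
    linear_combination (MvPolynomial.aeval F B') * h1 + (MvPolynomial.aeval F B) * h2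
  | inv x _ hx =>
    obtain ⟨A, B, hB, h1⟩ := hx
    by_cases hx0 : x = 0
    · exact ⟨0, 1, by simp, by simp [hx0]⟩
    · refine ⟨B, A, ?_, ?_⟩
      · rw [← h1]
        exact mul_ne_zero hx0 hB
      · rw [← h1]
        field_simp
  | mul x y _ _ hx hy =>
    obtain ⟨A, B, hB, h1⟩ := hx
    obtain ⟨A', B', hB', h2⟩ := hy
    refine ⟨A * A', B * B', by rw [map_mul]; exact mul_ne_zero hB hB', ?_⟩
    simp only [map_mul]
    linear_combination (MvPolynomial.aeval F B' * y) * h1 + (MvPolynomial.aeval F A) * h2

/-- Common denominator. -/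
theorem exists_common {R : Type*} [CommRing R] [IsDomain R] [Algebra R K] [IsFractionRing R K]
    [Algebra R M] [IsScalarTower R K M] {ι : Type*} (F : ι → M) {σ : Type*} [Finite σ]
    (x : σ → M) (hx : ∀ i, x i ∈ IntermediateField.adjoin K (Set.range F)) :
    ∃ (A : σ → MvPolynomial ι R) (B : MvPolynomial ι R), MvPolynomial.aeval F B ≠ 0 ∧
      ∀ i, x i * MvPolynomial.aeval F B = MvPolynomial.aeval F (A i) := by
  classical
  have := Fintype.ofFinite σ
  choose A B hB h using fun i => exists_frac (R := R) F (hx i)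
  refine ⟨fun i => A i * ∏ j ∈ Finset.univ.erase i, B j, ∏ j, B j, ?_, ?_⟩
  · rw [map_prod]
    exact Finset.prod_ne_zero_iff.2 fun i _ => hB i
  · intro i
    rw [← Finset.mul_prod_erase Finset.univ B (Finset.mem_univ i), map_mul, map_mul, ← h i]
    ring

end Vale.Agent.P097.H835.Gen
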