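import Mathlib
import Vale.Agent.P097.H650.Patch

/-!
# The mirror of a moving reflection vertex, on one disc

`P, Q` (isotropic coordinates of the vertex) and `ψ` (normal angle of the mirror) are analytic in
`(t, w, ε)`; `dP = -e^{2iψ} dQ` in `u = (t, w)`. If `∂ψ/∂t` is close to a constant, then for every
`ε` the vertex runs on ONE mirror with support function `H(·, ε)`, analytic on one disc, jointly
in `ε`.
-/

namespace Vale.Agent.P097.H835.Mir

open Metric Set Filter Topology Complex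

/-- Uniform inversion in one variable. -/
theorem inj_surj {f : ℂ → ℂ} {t0 c : ℂ} {r : ℝ} (hc : c ≠ 0)
    (hf : DifferentiableOn ℂ f (ball t0 r))
    (hd : ∀ t ∈ ball t0 r, ‖deriv f t - c‖ ≤ ‖c‖ / 2) :
    InjOn f (ball t0 r) ∧ ∀ x, ‖x - f t0‖ < ‖c‖ * r / 2 → ∃ t ∈ ball t0 r, f t = x := by
  have hc0 : 0 < ‖c‖ := norm_pos_iff.2 hc
  -- the map `g t = t - f t / c` is `1/2`-Lipschitz
  have key : ∀ a ∈ ball t0 r, ∀ b ∈ ball t0 r,
      ‖(b - f b / c) - (a - f a / c)‖ ≤ 1 / 2 * ‖b - a‖ := by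
    intro a ha b hb
    have hder : ∀ t ∈ ball t0 r, HasDerivWithinAt (fun t => t - f t / c) (1 - deriv f t / c)
        (ball t0 r) t := by
      intro t ht
      have h1 : HasDerivAt f (deriv f t) t :=
        (hf.differentiableAt (isOpen_ball.mem_nhds ht)).hasDerivAt
      exact ((hasDerivAt_id t).sub (h1.div_const c)).hasDerivWithinAt
    refine (convex_ball t0 r).norm_image_sub_le_of_norm_hasDerivWithin_le hder ?_ ha hb
    intro t ht
    have h2 : (1 - deriv f t / c) = -((deriv f t - c) / c) := by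
      field_simp
      ring
    rw [h2, norm_neg, norm_div, div_le_iff₀ hc0]
    have := hd t ht
    linarith
  constructor
  · intro a ha b hb hab
    have h1 := key a ha b hb
    rw [hab] at h1
    have h2 : (b - f b / c) - (a - f b / c) = b - a := by ring
    rw [h2] at h1
    have h3 : ‖b - a‖ = 0 := le_antisymm (by linarith [norm_nonneg (b - a)]) (norm_nonneg _)
    exact (sub_eq_zero.1 (norm_eq_zero.1 h3)).symm
  · intro x hx
    have hr : 0 < r := by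
      by_contra h
      have h1 : ‖c‖ * r / 2 ≤ 0 := by nlinarith
      linarith [norm_nonneg (x - f t0)]
    set ρ : ℝ := 2 * ‖x - f t0‖ / ‖c‖ with hρ
    have hρ0 : 0 ≤ ρ := by positivity
    have hρr : ρ < r := by
      rw [hρ, div_lt_iff₀ hc0]
      linarith
    have hsub : closedBall t0 ρ ⊆ ball t0 r := closedBall_subset_ball hρr
    let g : ℂ → ℂ := fun t => t - f t / c + x / c
    have hmaps : MapsTo g (closedBall t0 ρ) (closedBall t0 ρ) := by
      intro t ht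
      have h1 := key t0 (hsub (mem_closedBall_self hρ0)) t (hsub ht)
      have h2 : g t - t0 = ((t - f t / c) - (t0 - f t0 / c)) + (x - f t0) / c := by
        simp only [g]
        ring
      rw [mem_closedBall, dist_eq_norm, h2]
      have h3 : ‖(x - f t0) / c‖ = ρ / 2 := by
        rw [norm_div, hρ]
        ring
      have h4 : ‖t - t0‖ ≤ ρ := by
        have := mem_closedBall.1 ht
        rwa [dist_eq_norm] at this
      calc ‖((t - f t / c) - (t0 - f t0 / c)) + (x - f t0) / c‖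
          ≤ ‖(t - f t / c) - (t0 - f t0 / c)‖ + ‖(x - f t0) / c‖ := norm_add_le _ _
        _ ≤ 1 / 2 * ρ + ρ / 2 := by
            rw [h3]
            have : 1 / 2 * ‖t - t0‖ ≤ 1 / 2 * ρ := by linarith
            linarith
        _ = ρ := by ring
    have hcontr : ContractingWith (1 / 2 : NNReal) (hmaps.restrict g _ _) := by
      refine ⟨by norm_num, ?_⟩
      refine LipschitzWith.of_dist_le_mul ?_
      intro a b
      rw [Subtype.dist_eq, Subtype.dist_eq, dist_eq_norm, dist_eq_norm]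
      have h1 := key b (hsub b.2) a (hsub a.2)
      have h2 : (((hmaps.restrict g _ _) a : closedBall t0 ρ) : ℂ) -
          (((hmaps.restrict g _ _) b : closedBall t0 ρ) : ℂ) =
          ((a : ℂ) - f a / c) - ((b : ℂ) - f b / c) := by
        simp only [MapsTo.val_restrict_apply, g]
        ring
      rw [h2]
      have h3 : ((1 / 2 : NNReal) : ℝ) = 1 / 2 := by simp
      rw [h3]
      exact h1
    obtain ⟨y, hy, hfix, -⟩ := hcontr.exists_fixedPoint' (isClosed_closedBall.isComplete)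
      hmaps (mem_closedBall_self hρ0) (edist_ne_top _ _)
    refine ⟨y, hsub hy, ?_⟩
    have h1 : y - f y / c + x / c = y := hfix
    have h2 : f y / c = x / c := by linear_combination -h1
    exact (div_left_inj' hc).1 h2

set_option linter.unusedSectionVars false

variable {X : Type*} [NormedAddCommGroup X] [NormedSpace ℂ X]

/-- The support function of the moving vertex. -/
noncomputable def Sf (P Q ψ : (ℂ × ℂ) × X → ℂ) (p : (ℂ × ℂ) × X) : ℂ :=
  (P p * exp (-(I * ψ p)) + Q p * exp (I * ψ p)) / 2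

/-- Its derivative with respect to the angle. -/
noncomputable def Sd (P Q ψ : (ℂ × ℂ) × X → ℂ) (p : (ℂ × ℂ) × X) : ℂ :=
  (-(I * P p) * exp (-(I * ψ p)) + I * Q p * exp (I * ψ p)) / 2

theorem Sf_add (P Q ψ : (ℂ × ℂ) × X → ℂ) (p : (ℂ × ℂ) × X) :
    (Sf P Q ψ p + I * Sd P Q ψ p) * exp (I * ψ p) = P p := by
  have h1 : exp (-(I * ψ p)) * exp (I * ψ p) = 1 := by
    rw [← Complex.exp_add]; simp
  have h2 : (I : ℂ) * I = -1 := I_mul_I
  unfold Sf Sd
  linear_combination P p * h1 + (-(P p) * exp (-(I * ψ p)) * exp (I * ψ p) / 2 +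
    Q p * exp (I * ψ p) * exp (I * ψ p) / 2) * h2

theorem Sf_sub (P Q ψ : (ℂ × ℂ) × X → ℂ) (p : (ℂ × ℂ) × X) :
    (Sf P Q ψ p - I * Sd P Q ψ p) * exp (-(I * ψ p)) = Q p := by
  have h1 : exp (-(I * ψ p)) * exp (I * ψ p) = 1 := by
    rw [← Complex.exp_add]; simp
  have h2 : (I : ℂ) * I = -1 := I_mul_I
  unfold Sf Sd
  linear_combination Q p * h1 + (P p * exp (-(I * ψ p)) * exp (-(I * ψ p)) / 2 -
    Q p * exp (-(I * ψ p)) * exp (I * ψ p) / 2) * h2

/-- `dS = S' dψ`. -/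
theorem hasFDerivAt_Sf {P Q ψ : (ℂ × ℂ) × X → ℂ} {u : ℂ × ℂ} {ε : X}
    (hψ : DifferentiableAt ℂ (fun u' => ψ (u', ε)) u)
    (hP : DifferentiableAt ℂ (fun u' => P (u', ε)) u)
    (hQ : DifferentiableAt ℂ (fun u' => Q (u', ε)) u)
    (law : fderiv ℂ (fun u' => P (u', ε)) u =
        (-exp (2 * I * ψ (u, ε))) • fderiv ℂ (fun u' => Q (u', ε)) u) :
    HasFDerivAt (fun u' => Sf P Q ψ (u', ε))
      (Sd P Q ψ (u, ε) • fderiv ℂ (fun u' => ψ (u', ε)) u) u := by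
  have e1 : HasFDerivAt (fun u' => exp (-(I * ψ (u', ε))))
      (exp (-(I * ψ (u, ε))) • -(I • fderiv ℂ (fun u' => ψ (u', ε)) u)) u :=
    ((hψ.hasFDerivAt.const_mul I).neg).cexp
  have e2 : HasFDerivAt (fun u' => exp (I * ψ (u', ε)))
      (exp (I * ψ (u, ε)) • (I • fderiv ℂ (fun u' => ψ (u', ε)) u)) u :=
    (hψ.hasFDerivAt.const_mul I).cexp
  have e3 := ((hP.hasFDerivAt.mul e1).add (hQ.hasFDerivAt.mul e2)).const_mul (1 / 2 : ℂ)
  have h1 : exp (-(I * ψ (u, ε))) * exp (2 * I * ψ (u, ε)) = exp (I * ψ (u, ε)) := by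
    rw [← Complex.exp_add]
    congr 1
    ring
  have e4 : (fun u' => Sf P Q ψ (u', ε)) = fun u' => (1 / 2 : ℂ) *
      (P (u', ε) * exp (-(I * ψ (u', ε))) + Q (u', ε) * exp (I * ψ (u', ε))) := by
    funext u'
    simp only [Sf]
    ring
  rw [e4]
  refine e3.congr_fderiv ?_
  rw [law]
  ext
  all_goals
    simp only [Sd, ContinuousLinearMap.comp_apply, ContinuousLinearMap.inl_apply,
      ContinuousLinearMap.inr_apply, smul_add, add_apply, smul_apply, neg_apply, smul_eq_mul]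
    linear_combination (-(1 / 2) * (fderiv ℂ (fun u' => Q (u', ε)) u) _) * h1

/-- **One mirror.** -/
theorem mirror [CompleteSpace X] {t0 w2 c x0 : ℂ} {e0 : X} {r s δ : ℝ} {P Q ψ : (ℂ × ℂ) × X → ℂ} (hc : c ≠ 0)
    (hs : 0 < s)
    (hψ : AnalyticOnNhd ℂ ψ ((ball t0 r ×ˢ ball w2 s) ×ˢ ball e0 δ))
    (hP : AnalyticOnNhd ℂ P ((ball t0 r ×ˢ ball w2 s) ×ˢ ball e0 δ))
    (hQ : AnalyticOnNhd ℂ Q ((ball t0 r ×ˢ ball w2 s) ×ˢ ball e0 δ))
    (hd : ∀ t ∈ ball t0 r, ∀ w ∈ ball w2 s, ∀ ε ∈ ball e0 δ,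
      ‖deriv (fun t' => ψ ((t', w), ε)) t - c‖ ≤ ‖c‖ / 2)
    (h0 : ∀ w ∈ ball w2 s, ∀ ε ∈ ball e0 δ, ‖ψ ((t0, w), ε) - x0‖ < ‖c‖ * r / 4)
    (law : ∀ u ∈ ball t0 r ×ˢ ball w2 s, ∀ ε ∈ ball e0 δ,
      fderiv ℂ (fun u' => P (u', ε)) u =
        (-exp (2 * I * ψ (u, ε))) • fderiv ℂ (fun u' => Q (u', ε)) u) :
    ∃ H : ℂ × X → ℂ, AnalyticOnNhd ℂ H (ball x0 (‖c‖ * r / 4) ×ˢ ball e0 δ) ∧
      ∀ u ∈ ball t0 r ×ˢ ball w2 s, ∀ ε ∈ ball e0 δ, ψ (u, ε) ∈ ball x0 (‖c‖ * r / 4) →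
        H (ψ (u, ε), ε) = Sf P Q ψ (u, ε) ∧
        deriv (fun x => H (x, ε)) (ψ (u, ε)) = Sd P Q ψ (u, ε) := by
  have hc0 : 0 < ‖c‖ := norm_pos_iff.2 hc
  set Ω : Set ((ℂ × ℂ) × X) := (ball t0 r ×ˢ ball w2 s) ×ˢ ball e0 δ with hΩ
  have hΩo : IsOpen Ω := (isOpen_ball.prod isOpen_ball).prod isOpen_ball
  have hmem : ∀ {t w : ℂ} {ε : X}, t ∈ ball t0 r → w ∈ ball w2 s → ε ∈ ball e0 δ →
      ((t, w), ε) ∈ Ω := fun h1 h2 h3 => ⟨⟨h1, h2⟩, h3⟩
  -- analyticity of slices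
  have aT : ∀ {F : (ℂ × ℂ) × X → ℂ}, AnalyticOnNhd ℂ F Ω → ∀ t ∈ ball t0 r, ∀ w ∈ ball w2 s,
      ∀ ε ∈ ball e0 δ, AnalyticAt ℂ (fun t' => F ((t', w), ε)) t := by
    intro F hF t ht w hw ε hε
    exact (hF _ (hmem ht hw hε)).comp_of_eq
      ((analyticAt_id.prod analyticAt_const).prod analyticAt_const) rfl
  have aU : ∀ {F : (ℂ × ℂ) × X → ℂ}, AnalyticOnNhd ℂ F Ω → ∀ u ∈ ball t0 r ×ˢ ball w2 s,
      ∀ ε ∈ ball e0 δ, AnalyticAt ℂ (fun u' => F (u', ε)) u := by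
    intro F hF u hu ε hε
    exact (hF (u, ε) ⟨hu, hε⟩).comp_of_eq (analyticAt_id.prod analyticAt_const) rfl
  -- uniform inversion
  have hinv : ∀ w ∈ ball w2 s, ∀ ε ∈ ball e0 δ,
      InjOn (fun t => ψ ((t, w), ε)) (ball t0 r) ∧
      ∀ x, ‖x - ψ ((t0, w), ε)‖ < ‖c‖ * r / 2 → ∃ t ∈ ball t0 r, ψ ((t, w), ε) = x := by
    intro w hw ε hε
    exact inj_surj hc (fun t ht => (aT hψ t ht w hw ε hε).differentiableAt.differentiableWithinAt)
      (fun t ht => hd t ht w hw ε hε)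
  have hex : ∀ x ∈ ball x0 (‖c‖ * r / 4), ∀ w ∈ ball w2 s, ∀ ε ∈ ball e0 δ,
      ∃ t ∈ ball t0 r, ψ ((t, w), ε) = x := by
    intro x hx w hw ε hε
    apply (hinv w hw ε hε).2
    rw [mem_ball, dist_eq_norm] at hx
    have h1 := h0 w hw ε hε
    calc ‖x - ψ ((t0, w), ε)‖ = ‖(x - x0) - (ψ ((t0, w), ε) - x0)‖ := by congr 1; ring
      _ ≤ ‖x - x0‖ + ‖ψ ((t0, w), ε) - x0‖ := norm_sub_le _ _
      _ < ‖c‖ * r / 2 := by linarith
  classical
  choose! τ hτm hτe using hex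
  -- derivative in `t` is nonzero
  have hne : ∀ t ∈ ball t0 r, ∀ w ∈ ball w2 s, ∀ ε ∈ ball e0 δ,
      deriv (fun t' => ψ ((t', w), ε)) t ≠ 0 := by
    intro t ht w hw ε hε h
    have := hd t ht w hw ε hε
    rw [h, zero_sub, norm_neg] at this
    linarith
  -- `dS`
  have hSf : ∀ u ∈ ball t0 r ×ˢ ball w2 s, ∀ ε ∈ ball e0 δ,
      HasFDerivAt (fun u' => Sf P Q ψ (u', ε))
        (Sd P Q ψ (u, ε) • fderiv ℂ (fun u' => ψ (u', ε)) u) u := by
    intro u hu ε hε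
    exact hasFDerivAt_Sf (aU hψ u hu ε hε).differentiableAt (aU hP u hu ε hε).differentiableAt
      (aU hQ u hu ε hε).differentiableAt (law u hu ε hε)
  have aSf : AnalyticOnNhd ℂ (Sf P Q ψ) Ω := by
    intro p hp
    have a1 := hψ p hp
    have a2 := hP p hp
    have a3 := hQ p hp
    have a4 : AnalyticAt ℂ (fun p => exp (-(I * ψ p))) p := (analyticAt_const.mul a1).neg.cexp
    have a5 : AnalyticAt ℂ (fun p => exp (I * ψ p)) p := (analyticAt_const.mul a1).cexp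
    exact ((a2.mul a4).add (a3.mul a5)).div analyticAt_const (by norm_num)
  -- analyticity of `τ`
  set Λ : Set (ℂ × ℂ × X) := ball x0 (‖c‖ * r / 4) ×ˢ ball w2 s ×ˢ ball e0 δ with hΛ
  have aτ : AnalyticOnNhd ℂ (fun q : ℂ × ℂ × X => τ q.1 q.2.1 q.2.2) Λ := by
    rintro ⟨x1, w1, ε1⟩ ⟨hx1, hw1, hε1⟩
    have ht1 := hτm x1 hx1 w1 hw1 ε1 hε1
    have he1 := hτe x1 hx1 w1 hw1 ε1 hε1
    set t1 := τ x1 w1 ε1 with ht1d
    have hF : AnalyticAt ℂ (fun v : (ℂ × ℂ × X) × ℂ => ψ ((v.2, v.1.2.1), v.1.2.2) - v.1.1)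
        ((x1, w1, ε1), t1) := by
      have b1 : AnalyticAt ℂ (fun v : (ℂ × ℂ × X) × ℂ => v.1.1) ((x1, w1, ε1), t1) :=
        analyticAt_fst.comp_of_eq analyticAt_fst rfl
      have b2 : AnalyticAt ℂ (fun v : (ℂ × ℂ × X) × ℂ => v.1.2.1) ((x1, w1, ε1), t1) :=
        (analyticAt_fst.comp_of_eq analyticAt_snd rfl).comp_of_eq analyticAt_fst rfl
      have b3 : AnalyticAt ℂ (fun v : (ℂ × ℂ × X) × ℂ => v.1.2.2) ((x1, w1, ε1), t1) :=
        (analyticAt_snd.comp_of_eq analyticAt_snd rfl).comp_of_eq analyticAt_fst rfl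
      refine AnalyticAt.sub ?_ b1
      exact (hψ ((t1, w1), ε1) (hmem ht1 hw1 hε1)).comp_of_eq
        ((analyticAt_snd.prod b2).prod b3) rfl
    obtain ⟨φ, hφa, hφ1, hφ2, -⟩ := H650.ift_scalar hF (by simpa using sub_eq_zero.2 he1) (by
      simp only [deriv_sub_const]
      exact hne t1 ht1 w1 hw1 ε1 hε1)
    refine hφa.congr ?_
    have hφc : ∀ᶠ q in 𝓝 (x1, w1, ε1), φ q ∈ ball t0 r :=
      hφa.continuousAt.eventually_mem (by rw [hφ1]; exact isOpen_ball.mem_nhds ht1)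
    have hΛo : ∀ᶠ q in 𝓝 ((x1, w1, ε1) : ℂ × ℂ × X), q ∈ Λ :=
      (isOpen_ball.prod (isOpen_ball.prod isOpen_ball)).mem_nhds ⟨hx1, hw1, hε1⟩
    filter_upwards [hφ2, hφc, hΛo] with q h1 h2 h3
    obtain ⟨⟩ := h3
    rename_i h3 h4
    exact (hinv q.2.1 h4.1 q.2.2 h4.2).1 h2 (hτm q.1 h3 q.2.1 h4.1 q.2.2 h4.2)
      ((sub_eq_zero.1 h1).trans (hτe q.1 h3 q.2.1 h4.1 q.2.2 h4.2).symm)
  let G : ℂ × ℂ × X → ℂ := fun q => Sf P Q ψ ((τ q.1 q.2.1 q.2.2, q.2.1), q.2.2)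
  have aG : AnalyticOnNhd ℂ G Λ := by
    rintro ⟨x1, w1, ε1⟩ hq
    have h1 := aτ _ hq
    obtain ⟨hx1, hw1, hε1⟩ := hq
    exact (aSf _ (hmem (hτm x1 hx1 w1 hw1 ε1 hε1) hw1 hε1)).comp_of_eq
      ((h1.prod (analyticAt_fst.comp_of_eq analyticAt_snd rfl)).prod
        (analyticAt_snd.comp_of_eq analyticAt_snd rfl)) rfl
  -- independence of `w`
  have hGw : ∀ x ∈ ball x0 (‖c‖ * r / 4), ∀ w ∈ ball w2 s, ∀ ε ∈ ball e0 δ,
      G (x, w, ε) = G (x, w2, ε) := by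
    intro x hx w hw ε hε
    have hder : ∀ w ∈ ball w2 s, HasDerivWithinAt (fun w => G (x, w, ε)) 0 (ball w2 s) w := by
      intro w hw
      have ht := hτm x hx w hw ε hε
      have h1 : AnalyticAt ℂ (fun w => τ x w ε) w :=
        (aτ (x, w, ε) ⟨hx, hw, hε⟩).comp_of_eq
          (analyticAt_const.prod (analyticAt_id.prod analyticAt_const)) rfl
      have h2 : HasDerivAt (fun w' => (τ x w' ε, w')) (deriv (fun w => τ x w ε) w, 1) w :=
        h1.differentiableAt.hasDerivAt.prodMk (hasDerivAt_id w)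
      have h3 : HasDerivAt (fun w' => ψ ((τ x w' ε, w'), ε))
          (fderiv ℂ (fun u' => ψ (u', ε)) (τ x w ε, w) (deriv (fun w => τ x w ε) w, 1)) w :=
        ((aU hψ (τ x w ε, w) ⟨ht, hw⟩ ε hε).differentiableAt.hasFDerivAt).comp_hasDerivAt_of_eq w h2
          rfl
      have h4 : HasDerivAt (fun w' => ψ ((τ x w' ε, w'), ε)) 0 w := by
        refine (hasDerivAt_const w x).congr_of_eventuallyEq ?_
        filter_upwards [isOpen_ball.mem_nhds hw] with w' hw'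
        exact hτe x hx w' hw' ε hε
      have h5 := h3.unique h4
      have h6 := (hSf (τ x w ε, w) ⟨ht, hw⟩ ε hε).comp_hasDerivAt_of_eq w h2 rfl
      have h7 : HasDerivAt (fun w => G (x, w, ε)) 0 w := by
        refine h6.congr_deriv ?_
        rw [smul_apply, h5, smul_zero]
      exact h7.hasDerivWithinAt
    have hw2 : w2 ∈ ball w2 s := mem_ball_self hs
    have := (convex_ball w2 s).norm_image_sub_le_of_norm_hasDerivWithin_le hder
      (C := 0) (fun _ _ => by simp) hw2 hw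
    rw [zero_mul] at this
    exact sub_eq_zero.1 (norm_eq_zero.1 (le_antisymm this (norm_nonneg _)))
  refine ⟨fun q => G (q.1, w2, q.2), ?_, ?_⟩
  · rintro ⟨x1, ε1⟩ ⟨hx1, hε1⟩
    exact (aG (x1, w2, ε1) ⟨hx1, mem_ball_self hs, hε1⟩).comp_of_eq
      (analyticAt_fst.prod (analyticAt_const.prod analyticAt_snd)) rfl
  · have hmain : ∀ u ∈ ball t0 r ×ˢ ball w2 s, ∀ ε ∈ ball e0 δ,
        ψ (u, ε) ∈ ball x0 (‖c‖ * r / 4) → G (ψ (u, ε), w2, ε) = Sf P Q ψ (u, ε) := by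
      rintro ⟨t, w⟩ ⟨ht, hw⟩ ε hε hx
      rw [← hGw _ hx w hw ε hε]
      have : τ (ψ ((t, w), ε)) w ε = t :=
        (hinv w hw ε hε).1 (hτm _ hx w hw ε hε) ht (hτe _ hx w hw ε hε)
      simp only [G, this]
    intro u hu ε hε hx
    refine ⟨hmain u hu ε hε hx, ?_⟩
    obtain ⟨t, w⟩ := u
    obtain ⟨ht, hw⟩ := hu
    have h1 : AnalyticAt ℂ (fun x => G (x, w2, ε)) (ψ ((t, w), ε)) :=
      (aG (ψ ((t, w), ε), w2, ε) ⟨hx, mem_ball_self hs, hε⟩).comp_of_eq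
        (analyticAt_id.prod analyticAt_const) rfl
    have hψt := (aT hψ t ht w hw ε hε).differentiableAt
    have h2 : HasDerivAt (fun t' => G (ψ ((t', w), ε), w2, ε))
        (deriv (fun x => G (x, w2, ε)) (ψ ((t, w), ε)) * deriv (fun t' => ψ ((t', w), ε)) t) t :=
      HasDerivAt.comp t (h₂ := fun x => G (x, w2, ε)) h1.differentiableAt.hasDerivAt
        hψt.hasDerivAt
    have h3 : HasDerivAt (fun t' : ℂ => ((t', w) : ℂ × ℂ)) (1, 0) t :=
      (hasDerivAt_id t).prodMk (hasDerivAt_const t w)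
    have h4 := (hSf (t, w) ⟨ht, hw⟩ ε hε).comp_hasDerivAt_of_eq t h3 rfl
    have h5 : HasDerivAt (fun t' => ψ ((t', w), ε))
        (fderiv ℂ (fun u' => ψ (u', ε)) (t, w) (1, 0)) t :=
      ((aU hψ (t, w) ⟨ht, hw⟩ ε hε).differentiableAt.hasFDerivAt).comp_hasDerivAt_of_eq t h3 rfl
    have h6 : HasDerivAt (fun t' => G (ψ ((t', w), ε), w2, ε))
        (Sd P Q ψ ((t, w), ε) * deriv (fun t' => ψ ((t', w), ε)) t) t := by
      rw [h5.deriv]
      refine (h4.congr_of_eventuallyEq ?_)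
      have hcont : ContinuousAt (fun t' => ψ ((t', w), ε)) t := hψt.continuousAt
      filter_upwards [isOpen_ball.mem_nhds ht, hcont.eventually_mem (isOpen_ball.mem_nhds hx)]
        with t' ht' hx'
      exact hmain (t', w) ⟨ht', hw⟩ ε hε hx'
    exact mul_right_cancel₀ (hne t ht w hw ε hε) (h2.unique h6)

end Vale.Agent.P097.H835.Mir
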