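import Mathlib

/-!
# Superposition operators

The superposition operator `u ↦ F ∘ u` on the Banach space of continuous functions on the unit
interval is analytic at a constant function with value `x₀`, if `F` is analytic at `x₀`.
-/

namespace Vale.Agent.P097.H835

open Set Metric Topology Filter

/-- the unit interval -/
abbrev I01 : Type := Set.Icc (0 : ℝ) 1

variable {E G : Type*} [NormedAddCommGroup E] [NormedSpace ℂ E] [NormedAddCommGroup G]
  [NormedSpace ℂ G]

/-- pointwise application of a continuous multilinear map -/
noncomputable def pwM {n : ℕ} (m : ContinuousMultilinearMap ℂ (fun _ : Fin n => E) G) :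
    ContinuousMultilinearMap ℂ (fun _ : Fin n => C(I01, E)) C(I01, G) :=
  MultilinearMap.mkContinuous
    { toFun := fun u => ⟨fun t => m (fun i => u i t), by fun_prop⟩
      map_update_add' := fun u i x y => by
        ext t
        have h : ∀ z : C(I01, E), (fun j => (Function.update u i z) j t) =
            Function.update (fun j => u j t) i (z t) := fun z => by
          funext j
          by_cases hj : j = i
          · subst hj; simp
          · simp [hj]
        simp only [ContinuousMap.coe_mk, ContinuousMap.add_apply, h]
        exact m.map_update_add _ _ _ _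
      map_update_smul' := fun u i c x => by
        ext t
        have h : ∀ z : C(I01, E), (fun j => (Function.update u i z) j t) =
            Function.update (fun j => u j t) i (z t) := fun z => by
          funext j
          by_cases hj : j = i
          · subst hj; simp
          · simp [hj]
        simp only [ContinuousMap.coe_mk, ContinuousMap.smul_apply, h]
        exact m.map_update_smul _ _ _ _ } ‖m‖ (fun u => by
      refine (ContinuousMap.norm_le _ (by positivity)).2 fun t => ?_
      refine (m.le_opNorm _).trans ?_
      gcongr with i
      exact (u i).norm_coe_le_norm t)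

theorem pwM_apply {n : ℕ} (m : ContinuousMultilinearMap ℂ (fun _ : Fin n => E) G)
    (u : Fin n → C(I01, E)) (t : I01) : pwM m u t = m (fun i => u i t) := rfl

theorem norm_pwM_le {n : ℕ} (m : ContinuousMultilinearMap ℂ (fun _ : Fin n => E) G) :
    ‖pwM m‖ ≤ ‖m‖ := MultilinearMap.mkContinuous_norm_le _ (norm_nonneg _) _

open Classical in
/-- the superposition operator -/
noncomputable def supO (F : E → G) (u : C(I01, E)) : C(I01, G) :=
  if h : Continuous (F ∘ u) then ⟨F ∘ u, h⟩ else 0

omit [NormedSpace ℂ E] [NormedSpace ℂ G] in
theorem supO_apply {F : E → G} {u : C(I01, E)} (h : Continuous (F ∘ u)) (t : I01) :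
    supO F u t = F (u t) := by
  rw [supO, dif_pos h]
  rfl

theorem analyticAt_supO [CompleteSpace G] {F : E → G} {x₀ : E} (hF : AnalyticAt ℂ F x₀) :
    AnalyticAt ℂ (supO F) (ContinuousMap.const I01 x₀) := by
  obtain ⟨p, R, hp⟩ := hF
  let P : FormalMultilinearSeries ℂ C(I01, E) C(I01, G) := fun n => pwM (p n)
  refine ⟨P, R, ⟨?_, hp.r_pos, ?_⟩⟩
  · exact hp.r_le.trans (FormalMultilinearSeries.radius_le_of_le fun n => norm_pwM_le (p n))
  · intro y hy
    have hy' : ∀ t : I01, y t ∈ Metric.eball (0 : E) R := fun t => by
      rw [Metric.mem_eball, edist_zero_right] at hy ⊢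
      refine lt_of_le_of_lt ?_ hy
      rw [enorm_le_iff_norm_le]
      exact y.norm_coe_le_norm t
    have hc : Continuous (F ∘ (ContinuousMap.const I01 x₀ + y)) := by
      have h1 : ContinuousOn F (Metric.eball x₀ R) := hp.continuousOn
      refine h1.comp_continuous (ContinuousMap.continuous _) fun t => ?_
      have := hy' t
      rw [Metric.mem_eball, edist_zero_right] at this
      rw [Metric.mem_eball, edist_eq_enorm_sub]
      simpa using this
    have hs : Summable fun n => P n fun _ => y := by
      have h2 : Summable fun n => ‖P n‖ * ‖y‖ ^ n := by
        have h3 : (‖y‖₊ : ENNReal) < P.radius := by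
          refine lt_of_lt_of_le ?_ (hp.r_le.trans
            (FormalMultilinearSeries.radius_le_of_le fun n => norm_pwM_le (p n)))
          rw [Metric.mem_eball, edist_zero_right] at hy
          exact hy
        simpa using P.summable_norm_mul_pow h3
      refine Summable.of_norm_bounded h2 fun n => ?_
      exact ((P n).le_opNorm _).trans (by simp)
    have he : (∑' n, P n fun _ => y) = supO F (ContinuousMap.const I01 x₀ + y) := by
      ext t
      rw [supO_apply hc]
      have h4 := (hs.hasSum.map (ContinuousMap.evalCLM ℂ t) (by fun_prop))
      have h5 := hp.hasSum (hy' t)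
      exact h4.unique h5
    rw [← he]
    exact hs.hasSum

end Vale.Agent.P097.H835
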