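import Vale.Agent.P097.H835.Mir

/-!
# The deformed chain in line coordinates, mirrors on one common disc

Input: a family (parameter `ε` in a complex Banach space `X`) of reflection chains
`(E j, P j, Q j)` (isotropic coordinates, directions `E j`) over a neighbourhood `V` of the closed
bidisc `closedBall t0 r ×ˢ closedBall w2 s`; at `ε = e0` the natural chain with mirror `h`.
Output: lines `(al j, q j)` and mirrors `H j (·, ε)` analytic on ONE disc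
`ball x0 (‖c‖ r / 4)` which does not depend on `w2, s`.
-/

namespace Vale.Agent.P097.H835.Mir

open Metric Set Filter Topology Complex

variable {X : Type*} [NormedAddCommGroup X] [NormedSpace ℂ X]

set_option linter.unusedSectionVars false

theorem analyticAt_ε {F : (ℂ × ℂ) × X → ℂ} {u : ℂ × ℂ} {ε : X} (hF : AnalyticAt ℂ F (u, ε)) :
    AnalyticAt ℂ (fun ε' => F (u, ε')) ε :=
  hF.comp_of_eq (analyticAt_const.prod analyticAt_id) rfl

theorem analyticAt_u {F : (ℂ × ℂ) × X → ℂ} {u : ℂ × ℂ} {ε : X} (hF : AnalyticAt ℂ F (u, ε)) :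
    AnalyticAt ℂ (fun u' => F (u', ε)) u :=
  hF.comp_of_eq (analyticAt_id.prod analyticAt_const) rfl

theorem deriv_t_eq {F : (ℂ × ℂ) × X → ℂ} {t w : ℂ} {ε : X} (hF : AnalyticAt ℂ F ((t, w), ε)) :
    deriv (fun t' => F ((t', w), ε)) t = fderiv ℂ F ((t, w), ε) ((1, 0), 0) := by
  have h1 : HasDerivAt (fun t' : ℂ => (((t', w), ε) : (ℂ × ℂ) × X)) ((1, 0), 0) t :=
    ((hasDerivAt_id t).prodMk (hasDerivAt_const t w)).prodMk (hasDerivAt_const t ε)
  exact (hF.differentiableAt.hasFDerivAt.comp_hasDerivAt_of_eq t h1 rfl).deriv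

theorem continuousAt_dt {F : (ℂ × ℂ) × X → ℂ} {p : (ℂ × ℂ) × X} (hF : AnalyticAt ℂ F p) :
    ContinuousAt (fun p => fderiv ℂ F p ((1, 0), 0)) p :=
  (hF.fderiv.continuousAt).clm_apply continuousAt_const

/-- Uniformity over a compact set. -/
theorem unif {K : Set (ℂ × ℂ)} (hK : IsCompact K) {e0 : X} {p : (ℂ × ℂ) × X → Prop}
    (h : ∀ u ∈ K, ∀ᶠ z in 𝓝 (u, e0), p z) :
    ∃ δ > 0, ∀ u ∈ K, ∀ ε ∈ ball e0 δ, p (u, ε) := by
  have h1 : ∀ᶠ ε in 𝓝 e0, ∀ u ∈ K, p (u, ε) := by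
    refine hK.eventually_forall_of_forall_eventually (P := fun ε u => p (u, ε)) ?_
    intro u hu
    have h2 : Tendsto (fun z : X × (ℂ × ℂ) => (z.2, z.1)) (𝓝 (e0, u)) (𝓝 (u, e0)) :=
      (continuous_snd.prodMk continuous_fst).continuousAt
    exact h2.eventually (h u hu)
  obtain ⟨δ, hδ, h3⟩ := Metric.eventually_nhds_iff_ball.1 h1
  exact ⟨δ, hδ, fun u hu ε hε => h3 ε hε u hu⟩

/-- The reflection law in line coordinates (normal angle, support number), mirror `H`. -/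
def Refl (H : ℂ → ℂ) (al p al' p' : ℂ) : Prop :=
  p = H ((al + al') / 2) * cos ((al' - al) / 2) - deriv H ((al + al') / 2) * sin ((al' - al) / 2) ∧
  p' = H ((al + al') / 2) * cos ((al' - al) / 2) + deriv H ((al + al') / 2) * sin ((al' - al) / 2)

/-- From the vertex to the two lines. -/
theorem refl_of {H : ℂ → ℂ} {a a' P Q : ℂ}
    (hP : P = (H ((a + a') / 2) + I * deriv H ((a + a') / 2)) * exp (I * ((a + a') / 2)))
    (hQ : Q = (H ((a + a') / 2) - I * deriv H ((a + a') / 2)) * exp (-(I * ((a + a') / 2)))) :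
    Refl H a ((P * exp (-(I * a)) + Q * exp (I * a)) / 2) a'
      ((P * exp (-(I * a')) + Q * exp (I * a')) / 2) := by
  set ψ := (a + a') / 2 with hψ
  set d := (a' - a) / 2 with hd
  have ha : a = ψ - d := by rw [hψ, hd]; ring
  have ha' : a' = ψ + d := by rw [hψ, hd]; ring
  have hI : (I : ℂ) * I = -1 := I_mul_I
  have e0 : exp (I * ψ) * exp (-(I * ψ)) = 1 := by rw [← Complex.exp_add]; simp
  have c1 : cos d = (exp (I * d) + exp (-(I * d))) / 2 := by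
    rw [Complex.cos, mul_comm d I, neg_mul, mul_comm d I]
  have c2 : sin d = (exp (-(I * d)) - exp (I * d)) * I / 2 := by
    rw [Complex.sin, mul_comm d I, neg_mul, mul_comm d I]
  refine ⟨?_, ?_⟩
  · have e1 : exp (-(I * a)) = exp (-(I * ψ)) * exp (I * d) := by
      rw [← Complex.exp_add, ha]; congr 1; ring
    have e2 : exp (I * a) = exp (I * ψ) * exp (-(I * d)) := by
      rw [← Complex.exp_add, ha]; congr 1; ring
    rw [hP, hQ, e1, e2, ← hψ, ← hd, c1, c2]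
    linear_combination ((H ψ + I * deriv H ψ) * exp (I * d) / 2 +
      (H ψ - I * deriv H ψ) * exp (-(I * d)) / 2) * e0
  · have e1 : exp (-(I * a')) = exp (-(I * ψ)) * exp (-(I * d)) := by
      rw [← Complex.exp_add, ha']; congr 1; ring
    have e2 : exp (I * a') = exp (I * ψ) * exp (I * d) := by
      rw [← Complex.exp_add, ha']; congr 1; ring
    rw [hP, hQ, e1, e2, ← hψ, ← hd, c1, c2]
    linear_combination ((H ψ + I * deriv H ψ) * exp (-(I * d)) / 2 +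
      (H ψ - I * deriv H ψ) * exp (I * d) / 2) * e0

/-- A family of chains over `V`, parameter `ε ∈ ball e0 δ`; natural chain (mirror `h`, normal
angles `A j`) at `ε = e0`. -/
structure DChain (n : ℕ) (V : Set (ℂ × ℂ)) (e0 : X) (δ : ℝ) (A : ℕ → ℂ × ℂ → ℂ) (h : ℂ → ℂ)
    (E P Q : ℕ → (ℂ × ℂ) × X → ℂ) : Prop where
  aE : ∀ j ≤ n, AnalyticOnNhd ℂ (E j) (V ×ˢ ball e0 δ)
  aP : ∀ j < n, AnalyticOnNhd ℂ (P j) (V ×ˢ ball e0 δ)
  aQ : ∀ j < n, AnalyticOnNhd ℂ (Q j) (V ×ˢ ball e0 δ)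
  inc : ∀ j, j + 1 < n → ∀ u ∈ V, ∀ ε ∈ ball e0 δ,
    P (j + 1) (u, ε) - E (j + 1) (u, ε) ^ 2 * Q (j + 1) (u, ε) =
      P j (u, ε) - E (j + 1) (u, ε) ^ 2 * Q j (u, ε)
  law : ∀ j < n, ∀ u ∈ V, ∀ ε ∈ ball e0 δ, fderiv ℂ (fun u' => P j (u', ε)) u =
    (E j (u, ε) * E (j + 1) (u, ε)) • fderiv ℂ (fun u' => Q j (u', ε)) u
  bE : ∀ j ≤ n, ∀ u ∈ V, E j (u, e0) = I * exp (I * A j u)
  bP : ∀ j < n, ∀ u ∈ V, P j (u, e0) = (h ((A j u + A (j + 1) u) / 2) +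
    I * deriv h ((A j u + A (j + 1) u) / 2)) * exp (I * ((A j u + A (j + 1) u) / 2))
  bQ : ∀ j < n, ∀ u ∈ V, Q j (u, e0) = (h ((A j u + A (j + 1) u) / 2) -
    I * deriv h ((A j u + A (j + 1) u) / 2)) * exp (-(I * ((A j u + A (j + 1) u) / 2)))

/-- **Word form.** -/
theorem word [CompleteSpace X] {n : ℕ} {t0 w2 c x0 : ℂ} {r s δ : ℝ} {e0 : X}
    {V : Set (ℂ × ℂ)} {A : ℕ → ℂ × ℂ → ℂ} {h : ℂ → ℂ} {E P Q : ℕ → (ℂ × ℂ) × X → ℂ}
    (D : DChain n V e0 δ A h E P Q) (hn : 0 < n) (hr : 0 < r) (hs : 0 < s) (hδ : 0 < δ) (hc : c ≠ 0)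
    (hV : IsOpen V) (hKV : closedBall t0 r ×ˢ closedBall w2 s ⊆ V)
    (hA : ∀ j ≤ n, AnalyticOnNhd ℂ (A j) V)
    (h1 : ∀ j < n, ∀ t ∈ closedBall t0 r, ∀ w ∈ closedBall w2 s,
      ‖deriv (fun t' => (A j (t', w) + A (j + 1) (t', w)) / 2) t - c‖ < ‖c‖ / 2)
    (h2 : ∀ j < n, ∀ w ∈ closedBall w2 s,
      ‖(A j (t0, w) + A (j + 1) (t0, w)) / 2 - x0‖ < ‖c‖ * r / 8) :
    ∃ δ', 0 < δ' ∧ δ' ≤ δ ∧ ∃ (al q : ℕ → (ℂ × ℂ) × X → ℂ) (H : ℕ → ℂ × X → ℂ),
      (∀ j ≤ n, AnalyticOnNhd ℂ (al j) ((ball t0 r ×ˢ ball w2 s) ×ˢ ball e0 δ')) ∧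
      (∀ j ≤ n, AnalyticOnNhd ℂ (q j) ((ball t0 r ×ˢ ball w2 s) ×ˢ ball e0 δ')) ∧
      (∀ j < n, AnalyticOnNhd ℂ (H j) (ball x0 (‖c‖ * r / 4) ×ˢ ball e0 δ')) ∧
      (∀ j ≤ n, ∀ u ∈ ball t0 r ×ˢ ball w2 s, ∀ ε ∈ ball e0 δ',
        E j (u, ε) = I * exp (I * al j (u, ε))) ∧
      (∀ j ≤ n, ∀ u ∈ ball t0 r ×ˢ ball w2 s, al j (u, e0) = A j u) ∧
      (∀ j < n, ∀ x ∈ ball x0 (‖c‖ * r / 4), H j (x, e0) = h x) ∧
      (∀ j < n, ∀ u ∈ ball t0 (r / 12) ×ˢ ball w2 s, ∀ ε ∈ ball e0 δ',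
        (al j (u, ε) + al (j + 1) (u, ε)) / 2 ∈ ball x0 (‖c‖ * r / 4)) ∧
      (∀ j < n, ∀ u ∈ ball t0 r ×ˢ ball w2 s, ∀ ε ∈ ball e0 δ',
        (al j (u, ε) + al (j + 1) (u, ε)) / 2 ∈ ball x0 (‖c‖ * r / 4) →
        Refl (fun x => H j (x, ε)) (al j (u, ε)) (q j (u, ε)) (al (j + 1) (u, ε))
          (q (j + 1) (u, ε)) ∧
        P j (u, ε) = (H j ((al j (u, ε) + al (j + 1) (u, ε)) / 2, ε) +
          I * deriv (fun x => H j (x, ε)) ((al j (u, ε) + al (j + 1) (u, ε)) / 2)) *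
            exp (I * ((al j (u, ε) + al (j + 1) (u, ε)) / 2)) ∧
        Q j (u, ε) = (H j ((al j (u, ε) + al (j + 1) (u, ε)) / 2, ε) -
          I * deriv (fun x => H j (x, ε)) ((al j (u, ε) + al (j + 1) (u, ε)) / 2)) *
            exp (-(I * ((al j (u, ε) + al (j + 1) (u, ε)) / 2)))) ∧
      (∀ j < n, ∀ u ∈ ball t0 r ×ˢ ball w2 s, ∀ ε ∈ ball e0 δ',
        q j (u, ε) = (P j (u, ε) * exp (-(I * al j (u, ε))) +
          Q j (u, ε) * exp (I * al j (u, ε))) / 2 ∧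
        q (j + 1) (u, ε) = (P j (u, ε) * exp (-(I * al (j + 1) (u, ε))) +
          Q j (u, ε) * exp (I * al (j + 1) (u, ε))) / 2) ∧
      (∀ j ≤ n, ∀ u ∈ ball t0 r ×ˢ ball w2 s, ∀ ε ∈ ball e0 δ',
        E j (u, ε) = E j (u, e0) → al j (u, ε) = A j u) := by
  have hc0 : 0 < ‖c‖ := norm_pos_iff.2 hc
  have he0 : e0 ∈ ball e0 δ := mem_ball_self hδ
  -- the angles
  let al : ℕ → (ℂ × ℂ) × X → ℂ := fun j z => A j z.1 - I * log (E j z / E j (z.1, e0))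
  have hE0 : ∀ j ≤ n, ∀ u ∈ V, E j (u, e0) ≠ 0 := by
    intro j hj u hu
    rw [D.bE j hj u hu]
    exact mul_ne_zero I_ne_zero (exp_ne_zero _)
  have hal0 : ∀ j ≤ n, ∀ u ∈ V, al j (u, e0) = A j u := by
    intro j hj u hu
    simp only [al, div_self (hE0 j hj u hu), Complex.log_one, mul_zero, sub_zero]
  have ratio_an : ∀ j ≤ n, ∀ u ∈ V, ∀ ε ∈ ball e0 δ,
      AnalyticAt ℂ (fun z : (ℂ × ℂ) × X => E j z / E j (z.1, e0)) (u, ε) := by
    intro j hj u hu ε hε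
    have a1 := D.aE j hj (u, ε) ⟨hu, hε⟩
    have a2 : AnalyticAt ℂ (fun z : (ℂ × ℂ) × X => E j (z.1, e0)) (u, ε) :=
      (D.aE j hj (u, e0) ⟨hu, he0⟩).comp_of_eq (analyticAt_fst.prod analyticAt_const) rfl
    exact a1.div a2 (hE0 j hj u hu)
  have al_an : ∀ j ≤ n, ∀ u ∈ V, ∀ ε ∈ ball e0 δ, E j (u, ε) / E j (u, e0) ∈ slitPlane →
      AnalyticAt ℂ (al j) (u, ε) := by
    intro j hj u hu ε hε hsl
    have a1 : AnalyticAt ℂ (fun z : (ℂ × ℂ) × X => A j z.1) (u, ε) :=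
      (hA j hj u hu).comp_of_eq analyticAt_fst rfl
    exact a1.sub (analyticAt_const.mul ((ratio_an j hj u hu ε hε).clog hsl))
  have hEexp : ∀ j ≤ n, ∀ u ∈ V, ∀ ε ∈ ball e0 δ, E j (u, ε) / E j (u, e0) ∈ slitPlane →
      E j (u, ε) = I * exp (I * al j (u, ε)) := by
    intro j hj u hu ε hε hsl
    have hne := hE0 j hj u hu
    have h3 : I * al j (u, ε) = I * A j u + log (E j (u, ε) / E j (u, e0)) := by
      simp only [al]
      linear_combination (-(log (E j (u, ε) / E j (u, e0)))) * I_mul_I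
    rw [h3, Complex.exp_add, Complex.exp_log (slitPlane_ne_zero hsl), ← mul_assoc,
      ← D.bE j hj u hu, mul_div_cancel₀ _ hne]
  let ψ : ℕ → (ℂ × ℂ) × X → ℂ := fun j z => (al j z + al (j + 1) z) / 2
  -- slices at `e0`
  have hψ0 : ∀ j < n, ∀ t w, (t, w) ∈ V →
      (fun t' => ψ j ((t', w), e0)) =ᶠ[𝓝 t] fun t' => (A j (t', w) + A (j + 1) (t', w)) / 2 := by
    intro j hj t w htw
    have h3 : ∀ᶠ t' in 𝓝 t, (t', w) ∈ V :=
      (Continuous.prodMk_left w).continuousAt.eventually_mem (hV.mem_nhds htw)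
    filter_upwards [h3] with t' ht'
    simp only [ψ, hal0 j hj.le _ ht', hal0 (j + 1) hj _ ht']
  have hsl0 : ∀ j ≤ n, ∀ u ∈ V, E j (u, e0) / E j (u, e0) ∈ slitPlane := by
    intro j hj u hu
    rw [div_self (hE0 j hj u hu)]
    exact one_mem_slitPlane
  have hψan : ∀ j < n, ∀ u ∈ V, AnalyticAt ℂ (ψ j) (u, e0) := fun j hj u hu =>
    ((al_an j hj.le u hu e0 he0 (hsl0 j hj.le u hu)).add
      (al_an (j + 1) hj u hu e0 he0 (hsl0 (j + 1) hj u hu))).div analyticAt_const (by norm_num)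
  -- compactness
  have hK : IsCompact (closedBall t0 r ×ˢ closedBall w2 s) :=
    (isCompact_closedBall t0 r).prod (isCompact_closedBall w2 s)
  obtain ⟨δ1, hδ1, hu1⟩ := unif hK (e0 := e0)
    (p := fun z => ∀ j ∈ Finset.range (n + 1), E j z / E j (z.1, e0) ∈ slitPlane) (by
      intro u hu
      rw [Filter.eventually_all_finset]
      intro j hj
      have hj' : j ≤ n := by
        have := Finset.mem_range.1 hj
        omega
      exact (ratio_an j hj' u (hKV hu) e0 he0).continuousAt.eventually_mem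
        (isOpen_slitPlane.mem_nhds (hsl0 j hj' u (hKV hu))))
  obtain ⟨δ2, hδ2, hu2⟩ := unif hK (e0 := e0)
    (p := fun z => ∀ j ∈ Finset.range n, ‖fderiv ℂ (ψ j) z ((1, 0), 0) - c‖ < ‖c‖ / 2) (by
      rintro ⟨t, w⟩ hu
      rw [Filter.eventually_all_finset]
      intro j hj
      have hj' := Finset.mem_range.1 hj
      have h3 := continuousAt_dt (hψan j hj' (t, w) (hKV hu))
      have h4 : ‖fderiv ℂ (ψ j) ((t, w), e0) ((1, 0), 0) - c‖ < ‖c‖ / 2 := by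
        rw [← deriv_t_eq (hψan j hj' (t, w) (hKV hu)), (hψ0 j hj' t w (hKV hu)).deriv_eq]
        exact h1 j hj' t hu.1 w hu.2
      exact (h3.sub continuousAt_const).norm.eventually_lt continuousAt_const h4)
  have hK' : IsCompact (({t0} : Set ℂ) ×ˢ closedBall w2 s) :=
    isCompact_singleton.prod (isCompact_closedBall w2 s)
  obtain ⟨δ3, hδ3, hu3⟩ := unif hK' (e0 := e0)
    (p := fun z => ∀ j ∈ Finset.range n, ‖ψ j z - x0‖ < ‖c‖ * r / 8) (by
      rintro ⟨t, w⟩ ⟨ht, hw⟩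
      obtain rfl : t = t0 := ht
      have hu : (t, w) ∈ V := hKV ⟨mem_closedBall_self hr.le, hw⟩
      rw [Filter.eventually_all_finset]
      intro j hj
      have hj' := Finset.mem_range.1 hj
      have h4 : ‖ψ j ((t, w), e0) - x0‖ < ‖c‖ * r / 8 := by
        rw [(hψ0 j hj' t w hu).eq_of_nhds]
        exact h2 j hj' w hw
      exact ((hψan j hj' (t, w) hu).continuousAt.sub continuousAt_const).norm.eventually_lt
        continuousAt_const h4)
  set δ' := min δ (min δ1 (min δ2 δ3)) with hδ'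
  have hδ'0 : 0 < δ' := lt_min hδ (lt_min hδ1 (lt_min hδ2 hδ3))
  have m0 : ball e0 δ' ⊆ ball e0 δ := ball_subset_ball (min_le_left _ _)
  have m1 : ball e0 δ' ⊆ ball e0 δ1 :=
    ball_subset_ball ((min_le_right _ _).trans (min_le_left _ _))
  have m2 : ball e0 δ' ⊆ ball e0 δ2 :=
    ball_subset_ball ((min_le_right _ _).trans ((min_le_right _ _).trans (min_le_left _ _)))
  have m3 : ball e0 δ' ⊆ ball e0 δ3 :=
    ball_subset_ball ((min_le_right _ _).trans ((min_le_right _ _).trans (min_le_right _ _)))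
  have hBK : ball t0 r ×ˢ ball w2 s ⊆ closedBall t0 r ×ˢ closedBall w2 s :=
    prod_mono ball_subset_closedBall ball_subset_closedBall
  have hsl : ∀ j ≤ n, ∀ u ∈ ball t0 r ×ˢ ball w2 s, ∀ ε ∈ ball e0 δ',
      E j (u, ε) / E j (u, e0) ∈ slitPlane := fun j hj u hu ε hε =>
    hu1 u (hBK hu) ε (m1 hε) j (Finset.mem_range.2 (by omega))
  have ALan : ∀ j ≤ n, AnalyticOnNhd ℂ (al j) ((ball t0 r ×ˢ ball w2 s) ×ˢ ball e0 δ') := by
    rintro j hj ⟨u, ε⟩ ⟨hu, hε⟩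
    exact al_an j hj u (hKV (hBK hu)) ε (m0 hε) (hsl j hj u hu ε hε)
  have PSan : ∀ j < n, AnalyticOnNhd ℂ (ψ j) ((ball t0 r ×ˢ ball w2 s) ×ˢ ball e0 δ') :=
    fun j hj z hz => ((ALan j hj.le z hz).add (ALan (j + 1) hj z hz)).div analyticAt_const
      (by norm_num)
  have Eexp : ∀ j ≤ n, ∀ u ∈ ball t0 r ×ˢ ball w2 s, ∀ ε ∈ ball e0 δ',
      E j (u, ε) = I * exp (I * al j (u, ε)) := fun j hj u hu ε hε =>
    hEexp j hj u (hKV (hBK hu)) ε (m0 hε) (hsl j hj u hu ε hε)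
  have hd : ∀ j < n, ∀ t ∈ ball t0 r, ∀ w ∈ ball w2 s, ∀ ε ∈ ball e0 δ',
      ‖deriv (fun t' => ψ j ((t', w), ε)) t - c‖ ≤ ‖c‖ / 2 := by
    intro j hj t ht w hw ε hε
    rw [deriv_t_eq (PSan j hj ((t, w), ε) ⟨⟨ht, hw⟩, hε⟩)]
    exact (hu2 (t, w) (hBK ⟨ht, hw⟩) ε (m2 hε) j (Finset.mem_range.2 hj)).le
  have h8 : ∀ j < n, ∀ w ∈ ball w2 s, ∀ ε ∈ ball e0 δ',
      ‖ψ j ((t0, w), ε) - x0‖ < ‖c‖ * r / 8 := by
    intro j hj w hw ε hε
    exact hu3 (t0, w) ⟨rfl, ball_subset_closedBall hw⟩ ε (m3 hε) j (Finset.mem_range.2 hj)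
  have hmir : ∀ j, j < n → ∃ H : ℂ × X → ℂ,
      AnalyticOnNhd ℂ H (ball x0 (‖c‖ * r / 4) ×ˢ ball e0 δ') ∧
      ∀ u ∈ ball t0 r ×ˢ ball w2 s, ∀ ε ∈ ball e0 δ', ψ j (u, ε) ∈ ball x0 (‖c‖ * r / 4) →
        H (ψ j (u, ε), ε) = Sf (P j) (Q j) (ψ j) (u, ε) ∧
        deriv (fun x => H (x, ε)) (ψ j (u, ε)) = Sd (P j) (Q j) (ψ j) (u, ε) := by
    intro j hj
    refine mirror hc hs (PSan j hj) ?_ ?_ (hd j hj) ?_ ?_
    · exact (D.aP j hj).mono (prod_mono (hBK.trans hKV) m0)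
    · exact (D.aQ j hj).mono (prod_mono (hBK.trans hKV) m0)
    · intro w hw ε hε
      have := h8 j hj w hw ε hε
      have h9 : 0 < ‖c‖ * r := mul_pos hc0 hr
      linarith
    · intro u hu ε hε
      rw [D.law j hj u (hKV (hBK hu)) ε (m0 hε), Eexp j hj.le u hu ε hε,
        Eexp (j + 1) hj u hu ε hε]
      congr 1
      have h3 : 2 * I * ψ j (u, ε) = I * al j (u, ε) + I * al (j + 1) (u, ε) := by
        simp only [ψ]
        ring
      rw [h3, Complex.exp_add]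
      linear_combination (exp (I * al j (u, ε)) * exp (I * al (j + 1) (u, ε))) * I_mul_I
  choose! H hHan hHval using hmir
  -- the support numbers
  let q : ℕ → (ℂ × ℂ) × X → ℂ := fun j z =>
    if j < n then (P j z * exp (-(I * al j z)) + Q j z * exp (I * al j z)) / 2
    else (P (j - 1) z * exp (-(I * al j z)) + Q (j - 1) z * exp (I * al j z)) / 2
  have hq : ∀ j < n, ∀ u ∈ ball t0 r ×ˢ ball w2 s, ∀ ε ∈ ball e0 δ',
        q j (u, ε) = (P j (u, ε) * exp (-(I * al j (u, ε))) +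
          Q j (u, ε) * exp (I * al j (u, ε))) / 2 ∧
        q (j + 1) (u, ε) = (P j (u, ε) * exp (-(I * al (j + 1) (u, ε))) +
          Q j (u, ε) * exp (I * al (j + 1) (u, ε))) / 2 := by
    intro j hj u hu ε hε
    refine ⟨by simp only [q, if_pos hj], ?_⟩
    by_cases hj1 : j + 1 < n
    · simp only [q, if_pos hj1]
      have h3 := D.inc j hj1 u (hKV (hBK hu)) ε (m0 hε)
      rw [Eexp (j + 1) hj1.le u hu ε hε] at h3
      have h4 : exp (I * al (j + 1) (u, ε)) * exp (-(I * al (j + 1) (u, ε))) = 1 := by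
        rw [← Complex.exp_add]; simp
      have h5 : (I : ℂ) ^ 2 = -1 := I_sq
      linear_combination (exp (-(I * al (j + 1) (u, ε))) / 2) * h3 +
        ((Q j (u, ε) - Q (j + 1) (u, ε)) * exp (I * al (j + 1) (u, ε)) / 2) * h4 +
        ((Q (j + 1) (u, ε) - Q j (u, ε)) * exp (I * al (j + 1) (u, ε)) ^ 2 *
          exp (-(I * al (j + 1) (u, ε))) / 2) * h5
    · simp only [q, if_neg hj1, Nat.add_sub_cancel]
  have qan : ∀ j ≤ n, AnalyticOnNhd ℂ (q j)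
      ((ball t0 r ×ˢ ball w2 s) ×ˢ ball e0 δ') := by
    intro j hj z hz
    have hz' : z ∈ V ×ˢ ball e0 δ := ⟨hKV (hBK hz.1), m0 hz.2⟩
    have a1 : AnalyticAt ℂ (fun z => exp (-(I * al j z))) z :=
      (analyticAt_const.mul (ALan j hj z hz)).neg.cexp
    have a2 : AnalyticAt ℂ (fun z => exp (I * al j z)) z :=
      (analyticAt_const.mul (ALan j hj z hz)).cexp
    by_cases hjn : j < n
    · simp only [q, if_pos hjn]
      exact (((D.aP j hjn z hz').mul a1).add ((D.aQ j hjn z hz').mul a2)).div analyticAt_const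
        (by norm_num)
    · simp only [q, if_neg hjn]
      exact (((D.aP (j - 1) (by omega) z hz').mul a1).add
        ((D.aQ (j - 1) (by omega) z hz').mul a2)).div analyticAt_const (by norm_num)
  have hSfP : ∀ j < n, ∀ u ∈ ball t0 r ×ˢ ball w2 s, ∀ ε ∈ ball e0 δ',
      ψ j (u, ε) ∈ ball x0 (‖c‖ * r / 4) →
      P j (u, ε) = (H j (ψ j (u, ε), ε) + I * deriv (fun x => H j (x, ε)) (ψ j (u, ε))) *
        exp (I * ψ j (u, ε)) ∧
      Q j (u, ε) = (H j (ψ j (u, ε), ε) - I * deriv (fun x => H j (x, ε)) (ψ j (u, ε))) *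
        exp (-(I * ψ j (u, ε))) := by
    intro j hj u hu ε hε hx
    obtain ⟨g1, g2⟩ := hHval j hj u hu ε hε hx
    rw [g1, g2, Sf_add, Sf_sub]
    exact ⟨rfl, rfl⟩
  refine ⟨δ', hδ'0, min_le_left _ _, al, q, H, ALan, qan, hHan, Eexp, ?_, ?_, ?_, ?_, hq, ?_⟩
  · intro j hj u hu
    exact hal0 j hj u (hKV (hBK hu))
  · intro j hj x hx
    have hw2 : w2 ∈ ball w2 s := mem_ball_self hs
    have hee : e0 ∈ ball e0 δ' := mem_ball_self hδ'0
    have hinv := inj_surj (f := fun t => ψ j ((t, w2), e0)) (r := r) (t0 := t0) hc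
      (fun t ht => ((PSan j hj ((t, w2), e0) ⟨⟨ht, hw2⟩, hee⟩).comp_of_eq
        (f := fun t' : ℂ => (((t', w2), e0) : (ℂ × ℂ) × X))
        ((analyticAt_id.prod analyticAt_const).prod analyticAt_const)
        rfl).differentiableAt.differentiableWithinAt)
      (fun t ht => hd j hj t ht w2 hw2 e0 hee)
    obtain ⟨t, ht, htx⟩ := hinv.2 x (by
      have g1 := h8 j hj w2 hw2 e0 hee
      rw [mem_ball, dist_eq_norm] at hx
      calc ‖x - ψ j ((t0, w2), e0)‖ = ‖(x - x0) - (ψ j ((t0, w2), e0) - x0)‖ := by congr 1; ring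
        _ ≤ ‖x - x0‖ + ‖ψ j ((t0, w2), e0) - x0‖ := norm_sub_le _ _
        _ < ‖c‖ * r / 2 := by
          have h9 : 0 < ‖c‖ * r := mul_pos hc0 hr
          linarith)
    have hu : (t, w2) ∈ ball t0 r ×ˢ ball w2 s := ⟨ht, hw2⟩
    have htx' : ψ j ((t, w2), e0) = x := htx
    have g2 := (hHval j hj (t, w2) hu e0 hee (by rw [htx']; exact hx)).1
    rw [htx'] at g2
    have hVu := hKV (hBK hu)
    have g3 : ψ j ((t, w2), e0) = (A j (t, w2) + A (j + 1) (t, w2)) / 2 := by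
      simp only [ψ, hal0 j hj.le _ hVu, hal0 (j + 1) hj _ hVu]
    rw [g2, Sf, D.bP j hj _ hVu, D.bQ j hj _ hVu, ← g3, htx']
    have h4 : exp (I * x) * exp (-(I * x)) = 1 := by
      rw [← Complex.exp_add]; simp
    linear_combination (h x) * h4
  · rintro j hj ⟨t, w⟩ ⟨ht, hw⟩ ε hε
    have hr12 : ball t0 (r / 12) ⊆ ball t0 r := ball_subset_ball (by linarith)
    have g1 := h8 j hj w hw ε hε
    have g2 : ‖ψ j ((t, w), ε) - ψ j ((t0, w), ε)‖ ≤ (3 / 2 * ‖c‖) * ‖t - t0‖ := by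
      refine (convex_ball t0 r).norm_image_sub_le_of_norm_deriv_le
        (f := fun t => ψ j ((t, w), ε)) ?_ ?_ (mem_ball_self hr) (hr12 ht)
      · intro t' ht'
        exact ((PSan j hj ((t', w), ε) ⟨⟨ht', hw⟩, hε⟩).comp_of_eq
          (f := fun t' : ℂ => (((t', w), ε) : (ℂ × ℂ) × X))
          ((analyticAt_id.prod analyticAt_const).prod analyticAt_const) rfl).differentiableAt
      · intro t' ht'
        have g3 := hd j hj t' ht' w hw ε hε
        calc ‖deriv (fun t => ψ j ((t, w), ε)) t'‖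
            = ‖(deriv (fun t => ψ j ((t, w), ε)) t' - c) + c‖ := by congr 1; ring
          _ ≤ ‖deriv (fun t => ψ j ((t, w), ε)) t' - c‖ + ‖c‖ := norm_add_le _ _
          _ ≤ 3 / 2 * ‖c‖ := by linarith
    rw [mem_ball, dist_eq_norm] at ht ⊢
    calc ‖ψ j ((t, w), ε) - x0‖
        = ‖(ψ j ((t, w), ε) - ψ j ((t0, w), ε)) + (ψ j ((t0, w), ε) - x0)‖ := by congr 1; ring
      _ ≤ ‖ψ j ((t, w), ε) - ψ j ((t0, w), ε)‖ + ‖ψ j ((t0, w), ε) - x0‖ := norm_add_le _ _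
      _ < ‖c‖ * r / 4 := by
        have g4 : (3 / 2 * ‖c‖) * ‖t - t0‖ ≤ (3 / 2 * ‖c‖) * (r / 12) :=
          mul_le_mul_of_nonneg_left ht.le (by positivity)
        nlinarith
  · intro j hj u hu ε hε hx
    obtain ⟨g1, g2⟩ := hSfP j hj u hu ε hε hx
    obtain ⟨g3, g4⟩ := hq j hj u hu ε hε
    refine ⟨?_, g1, g2⟩
    rw [g3, g4]
    exact refl_of (H := fun x => H j (x, ε)) g1 g2
  · intro j hj u hu ε hε hE
    have hne := hE0 j hj u (hKV (hBK hu))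
    simp only [al, hE, div_self hne, Complex.log_one, mul_zero, sub_zero]

end Vale.Agent.P097.H835.Mir
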